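import Vale.Agent.P072.M.FacePot

/-! # P072-M6: the barrier near a face -/

namespace Vale.Agent.P072

open Finset

variable {d : ℕ}

theorem exists_epsM (G : Net d) (ε0 : ℝ) (hε0 : 0 < ε0) (hε1 : ε0 ≤ 1)
    (I : Finset (Fin d)) (lo B : ℝ) (hlo : 0 < lo) (hB : 0 < B) :
    ∃ ε : ℝ, 0 < ε ∧ ∀ k : Cpx d × Cpx d → ℝ, (∀ r ∈ G.R, ε0 ≤ k r ∧ k r ≤ ε0⁻¹) →
      ∀ x : Fin d → ℝ, (∀ i, 0 < x i) → (∀ j, j ∉ I → lo ≤ x j ∧ x j ≤ B) →
      ∀ r ∈ G.R, ε ≤ wt k I x r ∧ wt k I x r ≤ ε⁻¹ := by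
  obtain ⟨ε1, h1, h⟩ := exists_eps G (fun _ => 1) (fun _ _ => one_pos) I lo B hlo hB
  refine ⟨ε0 * ε1, mul_pos hε0 h1, ?_⟩
  intro k hk x hx hj r hr
  obtain ⟨h2, h3⟩ := h x hx hj r hr
  obtain ⟨h4, h5⟩ := hk r hr
  unfold wt at h2 h3 ⊢
  rw [one_mul] at h2 h3
  have h6 : 0 < ∏ j ∈ Iᶜ, x j ^ r.1 j := lt_of_lt_of_le h1 h2
  refine ⟨mul_le_mul h4 h2 h1.le (hε0.le.trans h4), ?_⟩
  rw [mul_inv]
  exact mul_le_mul h5 h3 h6.le (inv_pos.mpr hε0).le

theorem barrier_smallM (n : ℕ) (T s0 : ℝ) (hs0 : 0 < s0) :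
    ∃ ρ0 : ℝ, 0 < ρ0 ∧ ρ0 ≤ s0 ∧ ∀ z : ℝ, 0 < z → z < ρ0 →
      -(z * (Real.log z - T - 1)) ≤ s0 / (n + 1) := by
  have hc : Continuous fun z : ℝ => -(z * Real.log z) + (T + 1) * z :=
    Real.continuous_mul_log.neg.add (continuous_const.mul continuous_id)
  have hn : (0 : ℝ) < (n : ℝ) + 1 := by positivity
  have hδ : 0 < s0 / ((n : ℝ) + 1) := div_pos hs0 hn
  have h0 := Metric.continuous_iff.mp hc 0 (s0 / ((n : ℝ) + 1)) hδ
  obtain ⟨η, hη, h1⟩ := h0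
  refine ⟨min s0 η, lt_min hs0 hη, min_le_left _ _, ?_⟩
  intro z hz hzm
  have hzη : z < η := lt_of_lt_of_le hzm (min_le_right _ _)
  have h2 := h1 z (by rw [Real.dist_eq, sub_zero, abs_of_pos hz]; exact hzη)
  rw [Real.dist_eq] at h2
  have h4 := (abs_lt.mp h2).2
  have h5 : -(z * Real.log z) + (T + 1) * z - (-((0 : ℝ) * Real.log 0) + (T + 1) * 0)
      = -(z * (Real.log z - T - 1)) := by ring
  rw [h5] at h4
  exact h4.le

theorem barrierM_contOn {G : Net d} {κ : ℝ → Cpx d × Cpx d → ℝ} {x : ℝ → Fin d → ℝ}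
    {s : Set ℝ} (h : CSol G κ x s) (i : Fin d) : ContinuousOn (fun t => x t i) s := by
  intro t ht
  have h1 : ContinuousWithinAt x s t := h.1 t ht
  exact (continuous_apply i).continuousAt.comp_continuousWithinAt h1

theorem barrierM (G : Net d) (hG : WR G) (ε0 : ℝ) (hε0 : 0 < ε0) (hε1 : ε0 ≤ 1)
    (I : Finset (Fin d)) (lo B : ℝ) (hlo : 0 < lo) (hB : 0 < B) :
    ∃ r1 : ℝ, 0 < r1 ∧ ∀ r, 0 < r → r ≤ r1 → ∀ s0, 0 < s0 → s0 ≤ r → ∃ ρ0 : ℝ, 0 < ρ0 ∧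
      ∀ κ : ℝ → Cpx d × Cpx d → ℝ, Rates G ε0 κ →
      ∀ (x : ℝ → Fin d → ℝ) (a b : ℝ), a ≤ b → CSol G κ x (Set.Icc a b) →
        (∀ t ∈ Set.Icc a b, (∀ i, 0 < x t i ∧ x t i ≤ B) ∧
          ((∀ i ∈ I, x t i ≤ r) → ∀ j, j ∉ I → lo ≤ x t j)) →
        (∃ i ∈ I, s0 ≤ x a i) → ∃ i ∈ I, ρ0 ≤ x b i := by
  obtain ⟨ε, hε, hw⟩ := exists_epsM G ε0 hε0 hε1 I lo B hlo hB
  obtain ⟨Φ, E, T, hE, hT, hbd, hmono, -⟩ := face_potM G hG I ε ε0 hε hε0
  refine ⟨Real.exp (-T), Real.exp_pos _, ?_⟩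
  intro r hr hr1 s0 hs0 hs0r
  obtain ⟨ρ0, hρ0, hρs, hsm⟩ := barrier_smallM (Fintype.card {i // i ∈ I}) T s0 hs0
  refine ⟨ρ0, hρ0, ?_⟩
  intro κ hκ x a b hab hsol hx hstart
  by_contra hcon
  push Not at hcon
  -- the last time at which some coordinate in `I` is at least `s0`
  set S : Set ℝ := ⋃ i ∈ I, (Set.Icc a b ∩ (fun t => x t i) ⁻¹' Set.Ici s0) with hS
  have hScl : IsClosed S := by
    apply Set.Finite.isClosed_biUnion (Finset.finite_toSet I)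
    intro i _
    exact (barrierM_contOn hsol i).preimage_isClosed_of_isClosed isClosed_Icc isClosed_Ici
  have hSsub : S ⊆ Set.Icc a b := by
    intro t ht
    simp only [hS, Set.mem_iUnion] at ht
    obtain ⟨i, _, hi⟩ := ht
    exact hi.1
  have hScomp : IsCompact S := isCompact_Icc.of_isClosed_subset hScl hSsub
  have hSne : S.Nonempty := by
    obtain ⟨i, hi, hia⟩ := hstart
    refine ⟨a, ?_⟩
    simp only [hS, Set.mem_iUnion]
    exact ⟨i, hi, ⟨le_refl a, hab⟩, hia⟩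
  obtain ⟨ts, htsS, htsmax⟩ := hScomp.exists_isGreatest hSne
  have hts : ts ∈ Set.Icc a b := hSsub htsS
  obtain ⟨i0, hi0, hi0s⟩ : ∃ i ∈ I, s0 ≤ x ts i := by
    simp only [hS, Set.mem_iUnion] at htsS
    obtain ⟨i, hi, hit⟩ := htsS
    exact ⟨i, hi, hit.2⟩
  have htsb : ts < b := by
    rcases lt_or_eq_of_le hts.2 with h | h
    · exact h
    · exfalso
      have h1 := hcon i0 hi0
      rw [← h] at h1
      linarith
  have hafter : ∀ t ∈ Set.Ioc ts b, ∀ i ∈ I, x t i ≤ s0 := by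
    intro t ht i hi
    by_contra hlt
    push Not at hlt
    have htS : t ∈ S := by
      simp only [hS, Set.mem_iUnion]
      exact ⟨i, hi, ⟨le_trans hts.1 ht.1.le, ht.2⟩, hlt.le⟩
    have := htsmax htS
    linarith [ht.1]
  have hsubIcc : Set.Icc ts b ⊆ Set.Icc a b := Set.Icc_subset_Icc hts.1 le_rfl
  have hafter' : ∀ t ∈ Set.Icc ts b, ∀ i ∈ I, x t i ≤ s0 := by
    intro t ht i hi
    have hcl : IsClosed (Set.Icc ts b ∩ (fun t => x t i) ⁻¹' Set.Iic s0) :=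
      ((barrierM_contOn hsol i).mono hsubIcc).preimage_isClosed_of_isClosed
        isClosed_Icc isClosed_Iic
    have h1 : Set.Ioc ts b ⊆ Set.Icc ts b ∩ (fun t => x t i) ⁻¹' Set.Iic s0 := by
      intro u hu
      exact ⟨⟨hu.1.le, hu.2⟩, hafter u hu i hi⟩
    have h2 := closure_minimal h1 hcl
    rw [closure_Ioc htsb.ne] at h2
    exact (h2 ht).2
  have hsol' : CSol G κ x (Set.Icc ts b) := hsol.mono hsubIcc
  have hdec := hmono κ hκ x ts b htsb.le hsol' (by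
    intro t ht
    have hxt := hx t (hsubIcc ht)
    refine ⟨fun i => (hxt.1 i).1, ?_⟩
    apply hw (κ t) (hκ.bd t) (x t) (fun i => (hxt.1 i).1)
    intro j hj
    exact ⟨hxt.2 (fun i hi => (hafter' t ht i hi).trans hs0r) j hj, (hxt.1 j).2⟩)
  have hpos_ts : ∀ i, 0 < x ts i := fun i => ((hx ts hts).1 i).1
  have hpos_b : ∀ i, 0 < x b i := fun i => ((hx b ⟨hab, le_rfl⟩).1 i).1
  have hup := (hbd (fun i => x ts i) (fun i => hpos_ts i)).2
  have hlow := (hbd (fun i => x b i) (fun i => hpos_b i)).1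
  have h1 : ∑ i : {i // i ∈ I}, x ts i * (Real.log (x ts i) + T - 1) ≤ -s0 := by
    have h2 : ∀ i : {i // i ∈ I}, x ts i * (Real.log (x ts i) + T - 1) ≤ -x ts i := by
      intro i
      have hle : x ts i ≤ Real.exp (-T) :=
        ((hafter' ts ⟨le_rfl, htsb.le⟩ i i.2).trans hs0r).trans hr1
      have hlog : Real.log (x ts i) ≤ -T := by
        rw [← Real.log_exp (-T)]
        exact Real.log_le_log (hpos_ts i) hle
      nlinarith [hpos_ts i]
    calc ∑ i : {i // i ∈ I}, x ts i * (Real.log (x ts i) + T - 1)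
        ≤ ∑ i : {i // i ∈ I}, -x ts i := Finset.sum_le_sum fun i _ => h2 i
      _ = -∑ i : {i // i ∈ I}, x ts i := by rw [Finset.sum_neg_distrib]
      _ ≤ -s0 := by
        have h3 : x ts i0 ≤ ∑ i : {i // i ∈ I}, x ts i :=
          Finset.single_le_sum (f := fun i : {i // i ∈ I} => x ts i)
            (fun i _ => (hpos_ts i).le) (Finset.mem_univ (⟨i0, hi0⟩ : {i // i ∈ I}))
        linarith
  have h4 : -s0 < ∑ i : {i // i ∈ I}, x b i * (Real.log (x b i) - T - 1) := by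
    have h5 : ∀ i : {i // i ∈ I},
        -(s0 / ((Fintype.card {i // i ∈ I} : ℝ) + 1)) ≤ x b i * (Real.log (x b i) - T - 1) := by
      intro i
      have := hsm (x b i) (hpos_b i) (hcon i i.2)
      linarith
    have h6 : ∑ i : {i // i ∈ I}, -(s0 / ((Fintype.card {i // i ∈ I} : ℝ) + 1)) ≤
        ∑ i : {i // i ∈ I}, x b i * (Real.log (x b i) - T - 1) :=
      Finset.sum_le_sum fun i _ => h5 i
    rw [Finset.sum_const, Finset.card_univ, nsmul_eq_mul] at h6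
    have hn : (0 : ℝ) < (Fintype.card {i // i ∈ I} : ℝ) + 1 := by positivity
    have h7 : (Fintype.card {i // i ∈ I} : ℝ) * -(s0 / ((Fintype.card {i // i ∈ I} : ℝ) + 1))
        > -s0 := by
      have h8 : (Fintype.card {i // i ∈ I} : ℝ) * (s0 / ((Fintype.card {i // i ∈ I} : ℝ) + 1))
          < s0 := by
        rw [← mul_div_assoc, div_lt_iff₀ hn]
        nlinarith
      linarith
    linarith
  linarith

end Vale.Agent.P072
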