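import Mathlib

/-! # P072-M11: a global Caratheodory existence theorem -/

namespace Vale.Agent.P072

open MeasureTheory BoundedContinuousFunction

theorem cara_meas {d : ℕ} (f : ℝ → (Fin d → ℝ) → (Fin d → ℝ))
    (hmeas : ∀ z, Measurable (fun t => f t z)) (K : ℝ)
    (hlip : ∀ t x z, ‖f t x - f t z‖ ≤ K * ‖x - z‖) (y : ℝ → Fin d → ℝ) (hy : Continuous y) :
    Measurable (fun t => f t (y t)) := by
  have hc : ∀ t, Continuous fun z => f t z := by
    intro t
    have : LipschitzWith (Real.toNNReal K) (fun z => f t z) := by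
      refine LipschitzWith.of_dist_le_mul fun x z => ?_
      rw [dist_eq_norm, dist_eq_norm]
      refine (hlip t x z).trans ?_
      gcongr
      exact Real.le_coe_toNNReal K
    exact this.continuous
  have hm : Measurable (Function.uncurry (fun (z : Fin d → ℝ) (t : ℝ) => f t z)) :=
    measurable_uncurry_of_continuous_of_measurable hc hmeas
  exact hm.comp (hy.measurable.prodMk measurable_id)

theorem cara_int {d : ℕ} (g : ℝ → Fin d → ℝ) (hg : Measurable g) (M : ℝ)
    (hM : ∀ t, ‖g t‖ ≤ M) (a b : ℝ) : IntervalIntegrable g volume a b := by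
  refine (intervalIntegrable_const (c := M)).mono_fun' hg.aestronglyMeasurable ?_
  exact Filter.Eventually.of_forall hM

theorem cara_exp (K : ℝ) (hK : 0 < K) (t : ℝ) :
    |∫ s in (0 : ℝ)..t, K * Real.exp (2 * K * |s|)| ≤ Real.exp (2 * K * |t|) / 2 := by
  have hpos : ∀ t : ℝ, 0 ≤ t → ∫ s in (0 : ℝ)..t, K * Real.exp (2 * K * |s|) =
      (Real.exp (2 * K * t) - 1) / 2 := by
    intro t ht
    have h1 : ∫ s in (0 : ℝ)..t, K * Real.exp (2 * K * |s|) =
        ∫ s in (0 : ℝ)..t, K * Real.exp (2 * K * s) := by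
      refine intervalIntegral.integral_congr fun s hs => ?_
      rw [Set.uIcc_of_le ht] at hs
      simp only [abs_of_nonneg hs.1]
    rw [h1]
    have h2 : ∀ s ∈ Set.uIcc 0 t, HasDerivAt (fun s => Real.exp (2 * K * s) / 2)
        (K * Real.exp (2 * K * s)) s := by
      intro s _
      have h0 : HasDerivAt (fun s : ℝ => 2 * K * s) (2 * K) s := by
        simpa using (hasDerivAt_id s).const_mul (2 * K)
      exact (h0.exp.div_const 2).congr_deriv (by ring)
    rw [intervalIntegral.integral_eq_sub_of_hasDerivAt h2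
      (Continuous.intervalIntegrable (by fun_prop) _ _), mul_zero, Real.exp_zero]
    ring
  rcases le_total 0 t with ht | ht
  · rw [hpos t ht, abs_of_nonneg ht, abs_le]
    have : 1 ≤ Real.exp (2 * K * t) := Real.one_le_exp (by positivity)
    constructor <;> linarith
  · have h3 : ∫ s in (0 : ℝ)..t, K * Real.exp (2 * K * |s|) =
        -∫ s in (0 : ℝ)..(-t), K * Real.exp (2 * K * |s|) := by
      have h4 := intervalIntegral.integral_comp_neg (a := 0) (b := -t)
        (fun s => K * Real.exp (2 * K * |s|))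
      simp only [abs_neg, neg_neg, neg_zero] at h4
      rw [h4, intervalIntegral.integral_symm]
    rw [h3, hpos (-t) (by linarith), abs_of_nonpos ht, abs_le]
    have : 1 ≤ Real.exp (2 * K * -t) := Real.one_le_exp (by
      have := neg_nonneg.2 ht
      positivity)
    constructor <;> linarith

theorem caratheodory {d : ℕ} (f : ℝ → (Fin d → ℝ) → (Fin d → ℝ))
    (hmeas : ∀ z, Measurable (fun t => f t z)) (K M : ℝ) (hK : 0 < K) (hM : 0 ≤ M)
    (hlip : ∀ t x z, ‖f t x - f t z‖ ≤ K * ‖x - z‖) (hbd : ∀ t z, ‖f t z‖ ≤ M)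
    (x0 : Fin d → ℝ) :
    ∃ x : ℝ → Fin d → ℝ, x 0 = x0 ∧ Continuous x ∧
      (∀ a b : ℝ, IntervalIntegrable (fun t => f t (x t)) volume a b) ∧
      ∀ t : ℝ, x t = x0 + ∫ s in (0 : ℝ)..t, f s (x s) := by
  classical
  -- the unweighted curve
  set Y : (ℝ →ᵇ (Fin d → ℝ)) → ℝ → Fin d → ℝ :=
    fun u s => x0 + Real.exp (2 * K * |s|) • u s with hY
  have hYc : ∀ u, Continuous (Y u) := by
    intro u
    have := u.continuous
    simp only [hY]
    fun_prop
  have hint : ∀ u a b, IntervalIntegrable (fun s => f s (Y u s)) volume a b := fun u a b =>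
    cara_int _ (cara_meas f hmeas K hlip _ (hYc u)) M (fun t => hbd t _) a b
  have hcont : ∀ u, Continuous fun t : ℝ =>
      Real.exp (-(2 * K * |t|)) • ∫ s in (0 : ℝ)..t, f s (Y u s) := by
    intro u
    have h1 : Continuous fun t : ℝ => ∫ s in (0 : ℝ)..t, f s (Y u s) :=
      intervalIntegral.continuous_primitive (hint u) 0
    have h2 : Continuous fun t : ℝ => Real.exp (-(2 * K * |t|)) := by fun_prop
    exact h2.smul h1
  have hbound : ∀ u (t : ℝ),
      ‖Real.exp (-(2 * K * |t|)) • ∫ s in (0 : ℝ)..t, f s (Y u s)‖ ≤ M / (2 * K) := by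
    intro u t
    rw [norm_smul, Real.norm_eq_abs, abs_of_pos (Real.exp_pos _)]
    have h1 : ‖∫ s in (0 : ℝ)..t, f s (Y u s)‖ ≤ M * |t - 0| :=
      intervalIntegral.norm_integral_le_of_norm_le_const fun s _ => hbd s _
    rw [sub_zero] at h1
    have h2 : 2 * K * |t| ≤ Real.exp (2 * K * |t|) := by
      linarith [Real.add_one_le_exp (2 * K * |t|)]
    have h3 : Real.exp (-(2 * K * |t|)) * (2 * K * |t|) ≤ 1 := by
      rw [Real.exp_neg, inv_mul_le_iff₀ (Real.exp_pos _), mul_one]
      exact h2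
    calc Real.exp (-(2 * K * |t|)) * ‖∫ s in (0 : ℝ)..t, f s (Y u s)‖
        ≤ Real.exp (-(2 * K * |t|)) * (M * |t|) := by gcongr
      _ = M / (2 * K) * (Real.exp (-(2 * K * |t|)) * (2 * K * |t|)) := by
          field_simp
      _ ≤ M / (2 * K) * 1 := by gcongr
      _ = M / (2 * K) := mul_one _
  let S : (ℝ →ᵇ (Fin d → ℝ)) → (ℝ →ᵇ (Fin d → ℝ)) := fun u =>
    BoundedContinuousFunction.ofNormedAddCommGroup _ (hcont u) (M / (2 * K)) (hbound u)
  have hS : ∀ u t, S u t = Real.exp (-(2 * K * |t|)) • ∫ s in (0 : ℝ)..t, f s (Y u s) :=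
    fun u t => rfl
  have hcontr : ContractingWith (1 / 2) S := by
    refine ⟨by
      rw [← NNReal.coe_lt_coe]
      norm_num, LipschitzWith.of_dist_le_mul fun u v => ?_⟩
    have hc : (((1 / 2 : NNReal)) : ℝ) = 1 / 2 := by norm_num
    rw [hc, BoundedContinuousFunction.dist_le (by positivity)]
    intro t
    rw [dist_eq_norm, hS, hS, ← smul_sub, ← intervalIntegral.integral_sub (hint u 0 t) (hint v 0 t),
      norm_smul, Real.norm_eq_abs, abs_of_pos (Real.exp_pos _)]
    have h1 : ‖∫ s in (0 : ℝ)..t, (f s (Y u s) - f s (Y v s))‖ ≤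
        |∫ s in (0 : ℝ)..t, dist u v * (K * Real.exp (2 * K * |s|))| := by
      refine intervalIntegral.norm_integral_le_abs_of_norm_le ?_ ?_
      · refine Filter.Eventually.of_forall fun s => ?_
        refine (hlip s _ _).trans ?_
        have h2 : Y u s - Y v s = Real.exp (2 * K * |s|) • (u s - v s) := by
          simp only [hY, smul_sub]
          abel
        rw [h2, norm_smul, Real.norm_eq_abs, abs_of_pos (Real.exp_pos _)]
        have h3 : ‖u s - v s‖ ≤ dist u v := by
          rw [← dist_eq_norm]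
          exact BoundedContinuousFunction.dist_coe_le_dist s
        calc K * (Real.exp (2 * K * |s|) * ‖u s - v s‖)
            ≤ K * (Real.exp (2 * K * |s|) * dist u v) := by gcongr
          _ = dist u v * (K * Real.exp (2 * K * |s|)) := by ring
      · apply Continuous.intervalIntegrable
        fun_prop
    rw [intervalIntegral.integral_const_mul, abs_mul, abs_of_nonneg dist_nonneg] at h1
    have h4 := cara_exp K hK t
    calc Real.exp (-(2 * K * |t|)) * ‖∫ s in (0 : ℝ)..t, (f s (Y u s) - f s (Y v s))‖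
        ≤ Real.exp (-(2 * K * |t|)) * (dist u v * (Real.exp (2 * K * |t|) / 2)) := by
          gcongr
          exact h1.trans (by gcongr)
      _ = (Real.exp (-(2 * K * |t|)) * Real.exp (2 * K * |t|)) * (1 / 2 * dist u v) := by ring
      _ = 1 / 2 * dist u v := by
          rw [← Real.exp_add]
          simp
  obtain ⟨u, hu⟩ : ∃ u, S u = u := ⟨_, hcontr.fixedPoint_isFixedPt⟩
  have hfix : ∀ t, Y u t = x0 + ∫ s in (0 : ℝ)..t, f s (Y u s) := by
    intro t
    have h1 : u t = Real.exp (-(2 * K * |t|)) • ∫ s in (0 : ℝ)..t, f s (Y u s) := by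
      rw [← hS, hu]
    have h2 : Y u t = x0 + Real.exp (2 * K * |t|) • u t := rfl
    rw [h2, h1, smul_smul, ← Real.exp_add]
    simp
  refine ⟨Y u, ?_, hYc u, hint u, hfix⟩
  rw [hfix 0]
  simp

end Vale.Agent.P072
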