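import Vale.Agent.P072.Pot

/-! # P072-M2: the potential decreases along absolutely continuous curves -/

namespace Vale.Agent.P072

open Finset MeasureTheory

theorem dini_int {ι : Type} [Fintype ι] (Φ : (ι → ℝ) → ℝ) (A : ℕ) (τ E m T δ η : ℝ)
    (hη : 0 < η) (hΦ : IsPot Φ A τ E m T) (u w : ℝ → ι → ℝ) (a b : ℝ) (hab : a ≤ b)
    (hu : ContinuousOn u (Set.Icc a b))
    (hint : ∀ i, IntervalIntegrable (fun t => w t i) volume a b)
    (hw : ∀ s ∈ Set.Icc a b, ∀ t ∈ Set.Icc a b, s ≤ t → ∀ i,
      u t i = u s i + ∫ r in s..t, w r i)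
    (hpos : ∀ t ∈ Set.Icc a b, ∀ i, 0 < u t i)
    (hv : ∀ t ∈ Set.Icc a b, ∀ y : ι → ℝ, (∀ i, 0 < y i) →
      (∀ i, |Real.log (y i) - Real.log (u t i)| ≤ η) → ∀ v, Good Φ A τ E m y v →
      ∑ i, v i * w t i ≤ -δ) :
    Φ (u b) ≤ Φ (u a) - δ * (b - a) := by
  have hucomp : ∀ i, ContinuousOn (fun t => u t i) (Set.Icc a b) := fun i =>
    (continuous_apply i).comp_continuousOn hu
  have hlog : ContinuousOn (fun t => fun i => Real.log (u t i)) (Set.Icc a b) := by
    rw [continuousOn_pi]
    intro i
    exact (hucomp i).log fun t ht => (hpos t ht i).ne'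
  have hunif := isCompact_Icc.uniformContinuousOn_of_continuous hlog
  rw [Metric.uniformContinuousOn_iff] at hunif
  obtain ⟨h, hh, hclose⟩ := hunif η hη
  -- short steps
  have hshort : ∀ s ∈ Set.Icc a b, ∀ t ∈ Set.Icc a b, s ≤ t → t - s < h →
      Φ (u t) ≤ Φ (u s) - δ * (t - s) := by
    intro s hs t ht hst hsth
    obtain ⟨v, hv'⟩ := hΦ.good (u t) (hpos t ht)
    have h1 := hv'.1 (u s) (hpos s hs)
    have hsub : Set.uIcc s t ⊆ Set.uIcc a b := by
      rw [Set.uIcc_of_le hst, Set.uIcc_of_le hab]
      exact Set.Icc_subset_Icc hs.1 ht.2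
    have hint' : ∀ i, IntervalIntegrable (fun r => w r i) volume s t := fun i =>
      (hint i).mono_set hsub
    have h2 : ∑ i, v i * (u t i - u s i) = ∫ r in s..t, ∑ i, v i * w r i := by
      rw [intervalIntegral.integral_finsetSum]
      · refine Finset.sum_congr rfl fun i _ => ?_
        rw [intervalIntegral.integral_const_mul, hw s hs t ht hst i]
        ring
      · intro i _
        exact (hint' i).const_mul (v i)
    have h3 : ∫ r in s..t, ∑ i, v i * w r i ≤ ∫ _ in s..t, (-δ) := by
      apply intervalIntegral.integral_mono_on hst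
      · have := IntervalIntegrable.sum (μ := volume) (a := s) (b := t) (Finset.univ)
          (f := fun (i : ι) (r : ℝ) => v i * w r i) (fun i _ => (hint' i).const_mul (v i))
        refine this.congr ?_
        intro r _
        simp [Finset.sum_apply]
      · exact intervalIntegrable_const
      · intro r hr
        have hr' : r ∈ Set.Icc a b := ⟨hs.1.trans hr.1, hr.2.trans ht.2⟩
        refine hv r hr' (u t) (hpos t ht) ?_ v hv'
        intro i
        have hd : dist t r < h := by
          rw [Real.dist_eq, abs_of_nonneg (by linarith [hr.2])]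
          linarith [hr.1]
        have h4 := hclose t ht r hr' hd
        have h5 := (dist_le_pi_dist (fun i => Real.log (u t i)) (fun i => Real.log (u r i)) i)
        rw [Real.dist_eq] at h5
        exact h5.trans h4.le
    rw [intervalIntegral.integral_const, smul_eq_mul] at h3
    have h6 : ∑ i, (u s i - u t i) * v i = -∑ i, v i * (u t i - u s i) := by
      rw [← Finset.sum_neg_distrib]
      exact Finset.sum_congr rfl fun i _ => by ring
    rw [h6, h2] at h1
    linarith
  -- chain
  have hchain : ∀ n : ℕ, ∀ s ∈ Set.Icc a b, ∀ t ∈ Set.Icc a b, s ≤ t → t - s ≤ n * (h / 2) →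
      Φ (u t) ≤ Φ (u s) - δ * (t - s) := by
    intro n
    induction n with
    | zero =>
      intro s _ t _ hst hn
      have : s = t := by
        simp only [Nat.cast_zero, zero_mul] at hn
        linarith
      subst this
      simp
    | succ n ih =>
      intro s hs t ht hst hn
      push_cast at hn
      rcases le_total s (t - h / 2) with hc | hc
      · have hr : t - h / 2 ∈ Set.Icc a b := ⟨hs.1.trans hc, by linarith [ht.2]⟩
        have h1 := ih s hs (t - h / 2) hr hc (by linarith)
        have h2 := hshort (t - h / 2) hr t ht (by linarith) (by linarith)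
        nlinarith
      · exact hshort s hs t ht hst (by linarith)
  obtain ⟨n, hn⟩ := exists_nat_ge ((b - a) / (h / 2))
  refine hchain n a (Set.left_mem_Icc.mpr hab) b (Set.right_mem_Icc.mpr hab) hab ?_
  rw [div_le_iff₀ (by linarith)] at hn
  exact hn

/-- a good subgradient at `y` is good at nearby points for another function -/
theorem good_near {ι : Type} [Fintype ι] (Φ : (ι → ℝ) → ℝ) (A : ℕ) (τ E m η : ℝ)
    (hη : 0 ≤ η) (x y v : ι → ℝ) (hv : Good Φ A τ E m y v)
    (hxy : ∀ i, |Real.log (y i) - Real.log (x i)| ≤ η) :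
    Good (fun z => ∑ i, z i * v i) A (τ - A * η) (E + η) m x v := by
  refine ⟨?_, ?_, ?_⟩
  · intro x' _
    apply le_of_eq
    simp only
    rw [← Finset.sum_add_distrib]
    exact Finset.sum_congr rfl fun i _ => by ring
  · intro i
    have h1 := hv.2.1 i
    have h2 : v i - Real.log (x i) =
        (v i - Real.log (y i)) + (Real.log (y i) - Real.log (x i)) := by ring
    rw [h2]
    exact (abs_add_le _ _).trans (add_le_add h1 (hxy i))
  · intro a ha
    obtain ⟨h1, h2⟩ := hv.2.2 a ha
    refine ⟨h1, fun hp => ?_⟩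
    have h3 := h2 hp
    have h4 : ∑ i, (a i : ℝ) * Real.log (x i) =
        ∑ i, (a i : ℝ) * Real.log (y i) - ∑ i, (a i : ℝ) * (Real.log (y i) - Real.log (x i)) := by
      rw [← Finset.sum_sub_distrib]
      exact Finset.sum_congr rfl fun i _ => by ring
    have h5 : ∑ i, (a i : ℝ) * (Real.log (y i) - Real.log (x i)) ≤ A * η := by
      calc ∑ i, (a i : ℝ) * (Real.log (y i) - Real.log (x i))
          ≤ ∑ i, |(a i : ℝ)| * η := by
            refine Finset.sum_le_sum fun i _ => ?_
            refine (le_abs_self _).trans ?_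
            rw [abs_mul]
            exact mul_le_mul_of_nonneg_left (hxy i) (abs_nonneg _)
        _ = (∑ i, |(a i : ℝ)|) * η := by rw [Finset.sum_mul]
        _ ≤ A * η := by
            apply mul_le_mul_of_nonneg_right _ hη
            have : ((∑ i, |a i| : ℤ) : ℝ) ≤ ((A : ℤ) : ℝ) := by exact_mod_cast ha
            simpa using this
    linarith

end Vale.Agent.P072
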