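import Vale.Agent.P072.M.Barrier

/-! # P072-M7: trajectories cannot stay close to a face forever -/

namespace Vale.Agent.P072

open Finset

variable {d : ℕ}

private theorem stoich_sum_zeroM (G : Net d) (I : Finset (Fin d)) (v : {i // i ∈ I} → ℝ)
    (h : ∀ r ∈ G.R, ∑ i, v i * rv r i = 0) (z : Fin d → ℝ) (hz : z ∈ stoich G) :
    ∑ i, v i * z i = 0 := by
  unfold stoich at hz
  induction hz using Submodule.span_induction with
  | mem z hz =>
    obtain ⟨r, hr, rfl⟩ := hz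
    exact h r hr
  | zero => simp
  | add y z _ _ hy hz =>
    simp only [Pi.add_apply, mul_add, Finset.sum_add_distrib, hy, hz, add_zero]
  | smul a z _ hz =>
    simp only [Pi.smul_apply, smul_eq_mul]
    have : ∀ i : {i // i ∈ I}, v i * (a * z i) = a * (v i * z i) := fun i => by ring
    simp only [this, ← Finset.mul_sum, hz, mul_zero]

theorem escapeM (G : Net d) (hG : WR G) (ε0 : ℝ) (hε0 : 0 < ε0) (hε1 : ε0 ≤ 1)
    (c : Fin d → ℝ) (I : Finset (Fin d)) (hI : I.Nonempty) (lo B : ℝ) (hlo : 0 < lo)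
    (hB : 0 < B) (p : Fin d → ℝ) (hp : p - c ∈ stoich G) (hpI : ∀ i ∈ I, p i = 0) :
    ∃ r1 : ℝ, 0 < r1 ∧ ∀ r, 0 < r → r ≤ r1 →
      ∀ κ : ℝ → Cpx d × Cpx d → ℝ, Rates G ε0 κ → ∀ (x : ℝ → Fin d → ℝ) (a L : ℝ),
      CSol G κ x (Set.Ici a) →
      (∀ t, a ≤ t → x t ∈ Cls G c ∧ (∀ i, x t i ≤ B ∧ |Real.log (x t i)| ≤ L) ∧
        ((∀ i ∈ I, x t i ≤ r) → ∀ j, j ∉ I → lo ≤ x t j)) →
      ∃ t, a ≤ t ∧ ∃ i ∈ I, r < x t i := by
  obtain ⟨ε, hε, hwt⟩ := exists_epsM G ε0 hε0 hε1 I lo B hlo hB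
  obtain ⟨Φ, E, T, hE, hT, hbd, _, hstrict⟩ := face_potM G hG I ε ε0 hε hε0
  refine ⟨Real.exp (-(E + 1)), Real.exp_pos _, ?_⟩
  intro r hr hr1 κ hκ x a L hsol hx
  by_contra hcon
  push Not at hcon
  have hlogr : Real.log r ≤ -(E + 1) := by
    have := Real.log_le_log hr hr1
    rwa [Real.log_exp] at this
  have hpos : ∀ t, a ≤ t → ∀ i, 0 < x t i := fun t ht i => (hx t ht).1.1 i
  have hwt' : ∀ t, a ≤ t → ∀ q ∈ G.R,
      ε ≤ wt (κ t) I (x t) q ∧ wt (κ t) I (x t) q ≤ ε⁻¹ := by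
    intro t ht q hq
    exact hwt (κ t) (hκ.bd t) (x t) (hpos t ht)
      (fun j hj => ⟨(hx t ht).2.2 (hcon t ht) j hj, ((hx t ht).2.1 j).1⟩) q hq
  have hex : ∀ t, a ≤ t → ∀ v : {i // i ∈ I} → ℝ, (∀ i, |v i - Real.log (x t i)| ≤ E) →
      ∃ q ∈ G.R, ∑ i, v i * rv q i ≠ 0 := by
    intro t ht v hv
    by_contra hno
    push Not at hno
    have hz : x t - p ∈ stoich G := by
      have h1 := (stoich G).sub_mem (hx t ht).1.2 hp
      have h2 : x t - c - (p - c) = x t - p := by abel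
      rwa [h2] at h1
    have h0 := stoich_sum_zeroM G I v hno _ hz
    have h1 : ∑ i : {i // i ∈ I}, v i * (x t - p) i = ∑ i : {i // i ∈ I}, v i * x t i := by
      refine Finset.sum_congr rfl fun i _ => ?_
      simp [Pi.sub_apply, hpI i.1 i.2]
    rw [h1] at h0
    have : Nonempty {i // i ∈ I} := ⟨⟨hI.choose, hI.choose_spec⟩⟩
    have hneg : ∑ i : {i // i ∈ I}, v i * x t i < 0 := by
      apply Finset.sum_neg
      · intro i _
        have h2 := (abs_le.mp (hv i)).2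
        have h3 : Real.log (x t i) ≤ Real.log r :=
          Real.log_le_log (hpos t ht i) (hcon t ht i.1 i.2)
        have h4 : v i < 0 := by linarith
        exact mul_neg_of_neg_of_pos h4 (hpos t ht i)
      · exact Finset.univ_nonempty
    linarith
  obtain ⟨δ, hδ, hdec⟩ := hstrict L
  have hdec' : ∀ b, a ≤ b → Φ (fun i => x b i) ≤ Φ (fun i => x a i) - δ * (b - a) := by
    intro b hab
    apply hdec κ hκ x a b hab
    · exact hsol.mono Set.Icc_subset_Ici_self
    · intro t ht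
      exact ⟨hpos t ht.1, hwt' t ht.1, fun i _ => ((hx t ht.1).2.1 i).2, hex t ht.1⟩
  have hL : 0 ≤ L := le_trans (abs_nonneg _) ((hx a le_rfl).2.1 hI.choose).2
  have hlow : ∀ b, a ≤ b →
      -((Fintype.card {i // i ∈ I} : ℝ) * (B * (L + T + 1))) ≤ Φ (fun i => x b i) := by
    intro b hab
    refine le_trans ?_ (hbd (fun i => x b i) (fun i => hpos b hab i)).1
    have h1 : ∀ i : {i // i ∈ I}, -(B * (L + T + 1)) ≤ x b i * (Real.log (x b i) - T - 1) := by
      intro i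
      have h2 := (abs_le.mp ((hx b hab).2.1 i).2).1
      have h3 := ((hx b hab).2.1 i).1
      have h4 := hpos b hab i
      have h5 : x b i * (-(L + T + 1)) ≤ x b i * (Real.log (x b i) - T - 1) :=
        mul_le_mul_of_nonneg_left (by linarith) h4.le
      have h6 : x b i * (L + T + 1) ≤ B * (L + T + 1) :=
        mul_le_mul_of_nonneg_right h3 (by linarith)
      linarith
    have h7 := Finset.sum_le_sum (fun i (_ : i ∈ (Finset.univ : Finset {i // i ∈ I})) => h1 i)
    simpa [Finset.sum_const, nsmul_eq_mul] using h7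
  set C : ℝ := (Fintype.card {i // i ∈ I} : ℝ) * (B * (L + T + 1)) with hC
  have hCa := hlow a le_rfl
  have hb : a ≤ a + (Φ (fun i => x a i) + C + 1) / δ := by
    have : 0 ≤ (Φ (fun i => x a i) + C + 1) / δ := by
      apply div_nonneg _ hδ.le
      linarith
    linarith
  have h1 := hdec' _ hb
  have h2 := hlow _ hb
  have h3 : δ * (a + (Φ (fun i => x a i) + C + 1) / δ - a) = Φ (fun i => x a i) + C + 1 := by
    rw [add_sub_cancel_left]
    field_simp
  rw [h3] at h1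
  linarith

end Vale.Agent.P072
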