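import Vale.Agent.P072.M.Net
import Vale.Agent.P072.Stay

/-! # P072-M9: solutions stay in the class; uniqueness -/

namespace Vale.Agent.P072

open Finset MeasureTheory

variable {d : ℕ}

theorem stay_posM (G : Net d) (ε0 : ℝ) (hε0 : 0 < ε0) (κ : ℝ → Cpx d × Cpx d → ℝ)
    (hκ : Rates G ε0 κ) (x : ℝ → Fin d → ℝ) (b : ℝ) (hx : CSol G κ x (Set.Icc 0 b))
    (h0 : ∀ i, 0 < x 0 i) :
    ∀ t ∈ Set.Icc 0 b, ∀ i, 0 < x t i := by
  classical
  by_contra hcon
  push Not at hcon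
  obtain ⟨t1, ht1, i1, hi1⟩ := hcon
  have hcont := hx.1
  have hconti : ∀ i, ContinuousOn (fun t => x t i) (Set.Icc 0 b) := fun i =>
    (continuous_apply i).comp_continuousOn hcont
  -- bound
  obtain ⟨B0, hB0⟩ := isCompact_Icc.exists_bound_of_continuousOn hcont
  set B := max B0 1 with hB
  have hB1 : 1 ≤ B := le_max_right _ _
  have hxB : ∀ t ∈ Set.Icc 0 b, ∀ i, x t i ≤ B := fun t ht i =>
    (le_abs_self _).trans ((norm_le_pi_norm (x t) i).trans ((hB0 t ht).trans (le_max_left _ _)))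
  -- the bad set
  set S : Set ℝ := ⋃ i : Fin d, (Set.Icc 0 b ∩ (fun t => x t i) ⁻¹' Set.Iic 0) with hS
  have hSclosed : IsClosed S := by
    apply isClosed_iUnion_of_finite
    intro i
    exact (hconti i).preimage_isClosed_of_isClosed isClosed_Icc isClosed_Iic
  have hSne : S.Nonempty := ⟨t1, Set.mem_iUnion.2 ⟨i1, ht1, hi1⟩⟩
  have hSbdd : BddBelow S := ⟨0, fun t ht => by
    obtain ⟨i, hi⟩ := Set.mem_iUnion.1 ht
    exact hi.1.1⟩
  have hmem := hSclosed.csInf_mem hSne hSbdd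
  set T := sInf S with hT
  obtain ⟨i, ⟨⟨hT0, hTb⟩, hTi⟩⟩ := Set.mem_iUnion.1 hmem
  have hTi' : x T i ≤ 0 := hTi
  have hbefore : ∀ t, 0 ≤ t → t < T → ∀ j, 0 < x t j := by
    intro t ht0 htT j
    by_contra hneg
    push Not at hneg
    have : t ∈ S := Set.mem_iUnion.2 ⟨j, ⟨ht0, htT.le.trans hTb⟩, hneg⟩
    exact absurd (csInf_le hSbdd this) (not_le.2 htT)
  have hTpos : 0 < T := by
    rcases hT0.lt_or_eq with h | h
    · exact h
    · exfalso
      rw [← h] at hTi'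
      exact absurd (h0 i) (not_lt.2 hTi')
  set C := ∑ r ∈ G.R, ε0⁻¹ * (r.1 i : ℝ) * ∏ j, B ^ r.1 j with hC
  have hC0 : 0 ≤ C := Finset.sum_nonneg (fun r _ => mul_nonneg
    (mul_nonneg (inv_nonneg.2 hε0.le) (Nat.cast_nonneg _))
    (Finset.prod_nonneg (fun j _ => pow_nonneg (by linarith) _)))
  have hrhs : ∀ t, 0 ≤ t → t < T → -(C * x t i) ≤ rhs G (κ t) (x t) i := by
    intro t ht0 htT
    have hpos := hbefore t ht0 htT
    have h1 := stay_rhs_ge G (κ t) (fun r hr => hε0.trans_le (hκ.bd t r hr).1) B hB1 (x t) hpos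
      (hxB t ⟨ht0, htT.le.trans hTb⟩) i
    have h2 : ∑ r ∈ G.R, κ t r * (r.1 i : ℝ) * ∏ j, B ^ r.1 j ≤ C := by
      apply Finset.sum_le_sum
      intro r hr
      apply mul_le_mul_of_nonneg_right
      · exact mul_le_mul_of_nonneg_right (hκ.bd t r hr).2 (Nat.cast_nonneg _)
      · exact Finset.prod_nonneg (fun j _ => pow_nonneg (by linarith) _)
    have h3 := mul_le_mul_of_nonneg_right h2 (hpos i).le
    linarith
  -- a short final interval
  set h := min T (1 / (2 * (C + 1))) with hh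
  have hhpos : 0 < h := lt_min hTpos (by positivity)
  have hhT : h ≤ T := min_le_left _ _
  have hhC : C * h ≤ 1 / 2 := by
    calc C * h ≤ (C + 1) * (1 / (2 * (C + 1))) := by
          apply mul_le_mul (by linarith) (min_le_right _ _) hhpos.le (by linarith)
      _ = 1 / 2 := by field_simp
  have hsub : Set.Icc (T - h) T ⊆ Set.Icc 0 b := by
    intro t ht
    exact ⟨by linarith [ht.1], ht.2.trans hTb⟩
  obtain ⟨s0, hs0, hmax⟩ := isCompact_Icc.exists_isMaxOn
    (Set.nonempty_Icc.2 (by linarith : T - h ≤ T)) ((hconti i).mono hsub)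
  have hM0 : 0 < x s0 i := by
    have h1 : x (T - h) i ≤ x s0 i := hmax (Set.left_mem_Icc.2 (by linarith))
    exact (hbefore (T - h) (by linarith) (by linarith) i).trans_le h1
  have hs0' := hsub hs0
  have hinteg := rhs_integrable G ε0 hε0 κ hκ x s0 T hs0.2
    (hcont.mono (Set.Icc_subset_Icc hs0'.1 hTb))
  have heq := congrFun (hx.2 s0 hs0' T ⟨hT0, hTb⟩ hs0.2) i
  have hcomm : (∫ t in s0..T, rhs G (κ t) (x t)) i = ∫ t in s0..T, rhs G (κ t) (x t) i := by
    have := ContinuousLinearMap.intervalIntegral_comp_comm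
      (ContinuousLinearMap.proj (R := ℝ) (φ := fun _ : Fin d => ℝ) i) hinteg
    simpa using this.symm
  have hintegi : IntervalIntegrable (fun t => rhs G (κ t) (x t) i) volume s0 T :=
    ⟨(ContinuousLinearMap.proj (R := ℝ) (φ := fun _ : Fin d => ℝ) i).integrable_comp hinteg.1,
      (ContinuousLinearMap.proj (R := ℝ) (φ := fun _ : Fin d => ℝ) i).integrable_comp hinteg.2⟩
  have hlow : ∫ t in s0..T, (-(C * x s0 i)) ≤ ∫ t in s0..T, rhs G (κ t) (x t) i := by
    apply intervalIntegral.integral_mono_on_of_le_Ioo hs0.2 (by simp) hintegi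
    intro t ht
    have h1 := hrhs t (hs0'.1.trans ht.1.le) ht.2
    have h2 : x t i ≤ x s0 i := hmax ⟨hs0.1.trans ht.1.le, ht.2.le⟩
    have h3 := mul_le_mul_of_nonneg_left h2 hC0
    linarith
  rw [intervalIntegral.integral_const, smul_eq_mul] at hlow
  simp only [Pi.add_apply] at heq
  rw [hcomm] at heq
  have h1 : T - s0 ≤ h := by linarith [hs0.1]
  have h2 : (T - s0) * (C * x s0 i) ≤ h * (C * x s0 i) :=
    mul_le_mul_of_nonneg_right h1 (mul_nonneg hC0 hM0.le)
  have h3 : C * h * x s0 i ≤ 1 / 2 * x s0 i := mul_le_mul_of_nonneg_right hhC hM0.le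
  nlinarith

theorem stay_clsM (G : Net d) (ε0 : ℝ) (hε0 : 0 < ε0) (κ : ℝ → Cpx d × Cpx d → ℝ)
    (hκ : Rates G ε0 κ) (c : Fin d → ℝ)
    (x : ℝ → Fin d → ℝ) (b : ℝ) (hx : CSol G κ x (Set.Icc 0 b))
    (h0 : x 0 - c ∈ stoich G) : ∀ t ∈ Set.Icc 0 b, x t - c ∈ stoich G := by
  classical
  intro t ht
  by_contra hnot
  obtain ⟨f, hf, hker⟩ := Submodule.exists_le_ker_of_notMem hnot
  apply hf
  have hrhs : ∀ k z, rhs G k z ∈ stoich G := by
    intro k z
    have : rhs G k z = ∑ r ∈ G.R, (k r * mono z r.1) • rv r := by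
      funext i
      simp [rhs, rv, Finset.sum_apply]
    rw [this]
    exact Submodule.sum_mem _ (fun r hr => Submodule.smul_mem _ _
      (Submodule.subset_span ⟨r, hr, rfl⟩))
  set F : (Fin d → ℝ) →L[ℝ] ℝ := LinearMap.toContinuousLinearMap f with hF
  have hinteg := rhs_integrable G ε0 hε0 κ hκ x 0 t ht.1
    (hx.1.mono (Set.Icc_subset_Icc_right ht.2))
  have heq := hx.2 0 ⟨le_rfl, ht.1.trans ht.2⟩ t ht ht.1
  have hcomm := ContinuousLinearMap.intervalIntegral_comp_comm F hinteg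
  have hzero : ∀ s, F (rhs G (κ s) (x s)) = 0 := fun s => hker (hrhs _ _)
  simp only [hzero, intervalIntegral.integral_zero] at hcomm
  have h1 : f (x 0 - c) = 0 := hker h0
  have h2 : f (∫ s in (0 : ℝ)..t, rhs G (κ s) (x s)) = 0 := hcomm.symm
  rw [heq, add_sub_right_comm, map_add, h1, h2, add_zero]

end Vale.Agent.P072
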