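import Vale.Agent.P072.M.Net

/-! # P072-M10: uniqueness -/

namespace Vale.Agent.P072

open Finset MeasureTheory

variable {d : ℕ}

theorem uq_mono_contDiff (y : Cpx d) : ContDiff ℝ 1 (fun x : Fin d → ℝ => mono x y) := by
  unfold mono
  exact contDiff_prod fun j _ => (contDiff_apply ℝ ℝ j).pow _

theorem uq_mono_lip (y : Cpx d) (B : ℝ) :
    ∃ C : ℝ, 0 ≤ C ∧ ∀ x z : Fin d → ℝ, ‖x‖ ≤ B → ‖z‖ ≤ B →
      |mono x y - mono z y| ≤ C * ‖x - z‖ := by
  have hc : ContinuousOn (fun w => fderiv ℝ (fun x : Fin d → ℝ => mono x y) w)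
      (Metric.closedBall (0 : Fin d → ℝ) B) :=
    ((uq_mono_contDiff y).continuous_fderiv one_ne_zero).continuousOn
  obtain ⟨C, hC⟩ := (isCompact_closedBall (0 : Fin d → ℝ) B).exists_bound_of_continuousOn hc
  have hLip : LipschitzOnWith C.toNNReal (fun x : Fin d → ℝ => mono x y)
      (Metric.closedBall (0 : Fin d → ℝ) B) := by
    refine (convex_closedBall _ _).lipschitzOnWith_of_nnnorm_fderiv_le (𝕜 := ℝ) ?_ ?_
    · exact fun w _ => (uq_mono_contDiff y).differentiable one_ne_zero w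
    · intro w hw
      rw [← NNReal.coe_le_coe, coe_nnnorm]
      exact (hC w hw).trans (Real.le_coe_toNNReal C)
  refine ⟨C.toNNReal, NNReal.coe_nonneg _, fun x z hx hz => ?_⟩
  have h := hLip.dist_le_mul x (by simpa using hx) z (by simpa using hz)
  rw [Real.dist_eq, dist_eq_norm] at h
  exact h

/-- Lipschitz bound for the field on boxes, uniform in the rates -/
theorem rhs_lip (G : Net d) (ε0 : ℝ) (hε0 : 0 < ε0) (B : ℝ) :
    ∃ K : ℝ, 0 ≤ K ∧ ∀ k : Cpx d × Cpx d → ℝ, (∀ r ∈ G.R, ε0 ≤ k r ∧ k r ≤ ε0⁻¹) →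
      ∀ x z : Fin d → ℝ, (∀ i, |x i| ≤ B) → (∀ i, |z i| ≤ B) →
      ‖rhs G k x - rhs G k z‖ ≤ K * ‖x - z‖ := by
  choose C hC0 hC using fun y : Cpx d => uq_mono_lip y (max B 0)
  have hinv : 0 ≤ ε0⁻¹ := by positivity
  refine ⟨∑ r ∈ G.R, ε0⁻¹ * C r.1 * ‖rv r‖, Finset.sum_nonneg fun r _ =>
    mul_nonneg (mul_nonneg hinv (hC0 _)) (norm_nonneg _), fun k hk x z hx hz => ?_⟩
  have hxn : ‖x‖ ≤ max B 0 := (pi_norm_le_iff_of_nonneg (le_max_right _ _)).2 fun i =>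
    (hx i).trans (le_max_left _ _)
  have hzn : ‖z‖ ≤ max B 0 := (pi_norm_le_iff_of_nonneg (le_max_right _ _)).2 fun i =>
    (hz i).trans (le_max_left _ _)
  have heq : rhs G k x - rhs G k z
      = ∑ r ∈ G.R, (k r * (mono x r.1 - mono z r.1)) • rv r := by
    funext i
    simp only [rhs, rv, Pi.sub_apply, Finset.sum_apply, Pi.smul_apply, smul_eq_mul]
    rw [← Finset.sum_sub_distrib]
    exact Finset.sum_congr rfl fun r _ => by ring
  rw [heq, Finset.sum_mul]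
  refine (norm_sum_le _ _).trans (Finset.sum_le_sum fun r hr => ?_)
  rw [norm_smul, Real.norm_eq_abs, abs_mul]
  have hkr := hk r hr
  have hk0 : 0 ≤ k r := hε0.le.trans hkr.1
  have h1 : |k r| ≤ ε0⁻¹ := by rw [abs_of_nonneg hk0]; exact hkr.2
  have h2 := hC r.1 x z hxn hzn
  calc |k r| * |mono x r.1 - mono z r.1| * ‖rv r‖
      ≤ ε0⁻¹ * (C r.1 * ‖x - z‖) * ‖rv r‖ :=
        mul_le_mul_of_nonneg_right (mul_le_mul h1 h2 (abs_nonneg _) hinv) (norm_nonneg _)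
    _ = ε0⁻¹ * C r.1 * ‖rv r‖ * ‖x - z‖ := by ring

theorem uniqM (G : Net d) (ε0 : ℝ) (hε0 : 0 < ε0) (κ : ℝ → Cpx d × Cpx d → ℝ)
    (hκ : Rates G ε0 κ) (x z : ℝ → Fin d → ℝ) (b : ℝ)
    (hx : CSol G κ x (Set.Icc 0 b)) (hz : CSol G κ z (Set.Icc 0 b)) (h0 : x 0 = z 0) :
    ∀ t ∈ Set.Icc 0 b, x t = z t := by
  intro t ht
  have hb : 0 ≤ b := ht.1.trans ht.2
  have hxc := hx.1
  have hzc := hz.1
  obtain ⟨R₁, hR₁⟩ := (isCompact_Icc.image_of_continuousOn hxc).isBounded.subset_closedBall 0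
  obtain ⟨R₂, hR₂⟩ := (isCompact_Icc.image_of_continuousOn hzc).isBounded.subset_closedBall 0
  have hBx : ∀ t ∈ Set.Icc 0 b, ∀ i, |x t i| ≤ max R₁ R₂ := by
    intro s hs i
    have h1 : x s ∈ Metric.closedBall (0 : Fin d → ℝ) R₁ := hR₁ ⟨s, hs, rfl⟩
    rw [mem_closedBall_zero_iff] at h1
    exact (norm_le_pi_norm (x s) i).trans (h1.trans (le_max_left _ _))
  have hBz : ∀ t ∈ Set.Icc 0 b, ∀ i, |z t i| ≤ max R₁ R₂ := by
    intro s hs i
    have h1 : z s ∈ Metric.closedBall (0 : Fin d → ℝ) R₂ := hR₂ ⟨s, hs, rfl⟩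
    rw [mem_closedBall_zero_iff] at h1
    exact (norm_le_pi_norm (z s) i).trans (h1.trans (le_max_right _ _))
  obtain ⟨K, hK0, hK⟩ := rhs_lip G ε0 hε0 (max R₁ R₂)
  -- the clamped difference
  set p : ℝ → ℝ := fun s => max 0 (min s b) with hp
  have hpc : Continuous p := by fun_prop
  have hpm : ∀ s, p s ∈ Set.Icc 0 b := fun s =>
    ⟨le_max_left _ _, max_le hb (min_le_right _ _)⟩
  have hpid : ∀ s ∈ Set.Icc 0 b, p s = s := by
    intro s hs
    simp only [hp]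
    rw [min_eq_left hs.2, max_eq_right hs.1]
  set W : ℝ → ℝ := fun s => ‖x (p s) - z (p s)‖ with hW
  have hWc : Continuous W :=
    ((hxc.comp_continuous hpc hpm).sub (hzc.comp_continuous hpc hpm)).norm
  have hineq : ∀ s ∈ Set.Icc 0 b, W s ≤ K * ∫ u in (0 : ℝ)..s, W u := by
    intro s hs
    have h0m : (0 : ℝ) ∈ Set.Icc 0 b := ⟨le_rfl, hb⟩
    have e1 := hx.2 0 h0m s hs hs.1
    have e2 := hz.2 0 h0m s hs hs.1
    have hsub : Set.Icc 0 s ⊆ Set.Icc 0 b := Set.Icc_subset_Icc_right hs.2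
    have i1 := rhs_integrable G ε0 hε0 κ hκ x 0 s hs.1 (hxc.mono hsub)
    have i2 := rhs_integrable G ε0 hε0 κ hκ z 0 s hs.1 (hzc.mono hsub)
    have e3 : x s - z s = ∫ u in (0 : ℝ)..s, (rhs G (κ u) (x u) - rhs G (κ u) (z u)) := by
      rw [intervalIntegral.integral_sub i1 i2, e1, e2, h0]
      abel
    have hWs : W s = ‖x s - z s‖ := by simp only [hW]; rw [hpid s hs]
    rw [hWs, e3, ← intervalIntegral.integral_const_mul]
    refine intervalIntegral.norm_integral_le_of_norm_le hs.1 ?_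
      ((hWc.const_mul K).intervalIntegrable _ _)
    refine Filter.Eventually.of_forall fun u hu => ?_
    have hu' : u ∈ Set.Icc 0 b := ⟨hu.1.le, hu.2.trans hs.2⟩
    have h3 := hK (κ u) (fun r hr => hκ.bd u r hr) (x u) (z u) (hBx u hu') (hBz u hu')
    have hWu : W u = ‖x u - z u‖ := by simp only [hW]; rw [hpid u hu']
    rw [hWu]
    exact h3
  -- Gronwall
  have hY : ∀ s, HasDerivAt (fun s => ∫ u in (0 : ℝ)..s, W u) (W s) s := fun s =>
    intervalIntegral.integral_hasDerivAt_right (hWc.intervalIntegrable _ _)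
      (hWc.stronglyMeasurableAtFilter _ _) hWc.continuousAt
  have hYnn : ∀ s ∈ Set.Icc 0 b, 0 ≤ ∫ u in (0 : ℝ)..s, W u := fun s hs =>
    intervalIntegral.integral_nonneg hs.1 fun u _ => norm_nonneg _
  have hg := norm_le_gronwallBound_of_norm_deriv_right_le
    (f := fun s => ∫ u in (0 : ℝ)..s, W u) (f' := W) (δ := 0) (K := K) (ε := 0) (a := 0) (b := b)
    (fun s _ => (hY s).continuousAt.continuousWithinAt)
    (fun s _ => (hY s).hasDerivWithinAt)
    (by simp)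
    (fun s hs => by
      have h1 := hineq s ⟨hs.1, hs.2.le⟩
      have h2 := hYnn s ⟨hs.1, hs.2.le⟩
      rw [Real.norm_of_nonneg (show 0 ≤ W s from norm_nonneg _), Real.norm_of_nonneg h2, add_zero]
      exact h1) t ht
  rw [gronwallBound_ε0_δ0] at hg
  have hY0 : (∫ u in (0 : ℝ)..t, W u) = 0 := by
    have := norm_nonneg (∫ u in (0 : ℝ)..t, W u)
    exact norm_eq_zero.1 (le_antisymm hg this)
  have hWt := hineq t ht
  rw [hY0, mul_zero] at hWt
  have hWt' : W t = ‖x t - z t‖ := by simp only [hW]; rw [hpid t ht]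
  rw [hWt'] at hWt
  exact sub_eq_zero.1 (norm_eq_zero.1 (le_antisymm hWt (norm_nonneg _)))

end Vale.Agent.P072
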