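import Vale.Agent.P072.M.GlobalPot
import Vale.Agent.P072.M.Stay
import Vale.Agent.P072.M.Uniq
import Vale.Agent.P072.M.Carath

/-! # P072-M12: global existence -/

namespace Vale.Agent.P072

open Finset MeasureTheory

variable {d : ℕ}

/-- coordinatewise truncation to `[0, R]` -/
noncomputable def clampv (R : ℝ) (z : Fin d → ℝ) : Fin d → ℝ := fun i => max 0 (min (z i) R)

theorem clampv_abs {R : ℝ} (hR : 0 ≤ R) (z : Fin d → ℝ) (i : Fin d) : |clampv R z i| ≤ R := by
  unfold clampv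
  rw [abs_of_nonneg (le_max_left _ _)]
  exact max_le hR (min_le_right _ _)

theorem clampv_eq {R : ℝ} {z : Fin d → ℝ} (h : ∀ i, 0 ≤ z i ∧ z i ≤ R) : clampv R z = z := by
  funext i
  unfold clampv
  rw [min_eq_left (h i).2, max_eq_right (h i).1]

theorem clampv_lip (R : ℝ) (x z : Fin d → ℝ) : ‖clampv R x - clampv R z‖ ≤ ‖x - z‖ := by
  rw [pi_norm_le_iff_of_nonneg (norm_nonneg _)]
  intro i
  have h1 : ‖(x - z) i‖ ≤ ‖x - z‖ := norm_le_pi_norm (x - z) i
  refine le_trans ?_ h1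
  simp only [Pi.sub_apply, clampv, Real.norm_eq_abs]
  rw [abs_le]
  have h2 := le_abs_self (x i - z i)
  have h3 := neg_abs_le (x i - z i)
  rcases le_total (x i) R with a1 | a1 <;> rcases le_total (z i) R with a2 | a2 <;>
    simp only [a1, a2, min_eq_left, min_eq_right] <;>
    constructor <;> first
      | (rcases max_cases 0 (x i) with ⟨e1, e2⟩ | ⟨e1, e2⟩ <;>
          rcases max_cases 0 (z i) with ⟨e3, e4⟩ | ⟨e3, e4⟩ <;>
          rcases max_cases 0 R with ⟨e5, e6⟩ | ⟨e5, e6⟩ <;>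
          simp only [e1, e3, e5] <;> linarith)

theorem rhs_bd (G : Net d) (ε0 : ℝ) (hε0 : 0 < ε0) (R : ℝ) :
    ∃ M : ℝ, 0 ≤ M ∧ ∀ k : Cpx d × Cpx d → ℝ, (∀ r ∈ G.R, ε0 ≤ k r ∧ k r ≤ ε0⁻¹) →
      ∀ x : Fin d → ℝ, (∀ i, |x i| ≤ R) → ‖rhs G k x‖ ≤ M := by
  refine ⟨∑ r ∈ G.R, ε0⁻¹ * (∏ i, |R| ^ r.1 i) * (∑ i, |(r.2 i : ℝ) - r.1 i|), ?_, ?_⟩
  · have : 0 < ε0⁻¹ := by positivity
    positivity
  · intro k hk x hx
    have hε' : 0 < ε0⁻¹ := by positivity
    rw [pi_norm_le_iff_of_nonneg (by positivity)]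
    intro i
    unfold rhs
    rw [Real.norm_eq_abs]
    refine (abs_sum_le_sum_abs _ _).trans (sum_le_sum fun r hr => ?_)
    rw [abs_mul, abs_mul]
    have h1 : |k r| ≤ ε0⁻¹ := by
      rw [abs_of_nonneg (by linarith [(hk r hr).1])]; exact (hk r hr).2
    have h2 : |mono x r.1| ≤ ∏ i, |R| ^ r.1 i := by
      unfold mono
      rw [Finset.abs_prod]
      refine prod_le_prod (fun i _ => abs_nonneg _) fun i _ => ?_
      rw [abs_pow]
      exact pow_le_pow_left₀ (abs_nonneg _) ((hx i).trans (le_abs_self R)) _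
    have h3 : |(r.2 i : ℝ) - r.1 i| ≤ ∑ i, |(r.2 i : ℝ) - r.1 i| :=
      single_le_sum (f := fun i => |(r.2 i : ℝ) - r.1 i|) (fun i _ => abs_nonneg _) (mem_univ i)
    gcongr

theorem exist_solM (G : Net d) (hG : WR G) (ε0 : ℝ) (hε0 : 0 < ε0) (hε1 : ε0 ≤ 1)
    (κ : ℝ → Cpx d × Cpx d → ℝ) (hκ : Rates G ε0 κ) (x0 : Fin d → ℝ)
    (h0 : ∀ i, 0 < x0 i) :
    ∃ x : ℝ → Fin d → ℝ, x 0 = x0 ∧ CSol G κ x (Set.Ici 0) := by
  obtain ⟨F, hF1, hF2, -⟩ := global_potM G hG ε0 hε0 hε1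
  obtain ⟨B, hB0, hB⟩ := hF1 (F x0)
  set R : ℝ := B + 1 with hRdef
  have hR : 0 < R := by linarith
  obtain ⟨K, hK0, hK⟩ := rhs_lip G ε0 hε0 R
  obtain ⟨M, hM0, hM⟩ := rhs_bd G ε0 hε0 R
  obtain ⟨x, hx0, hxc, hxi, hx⟩ := caratheodory (fun t z => rhs G (κ t) (clampv R z))
    (by
      intro z
      rw [measurable_pi_iff]
      intro i
      unfold rhs
      refine Finset.measurable_sum _ fun r hr => ?_
      exact ((hκ.meas r hr).mul_const _).mul_const _)
    (K + 1) M (by linarith) hM0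
    (by
      intro t a b
      have h1 := hK (κ t) (hκ.bd t) (clampv R a) (clampv R b) (clampv_abs hR.le a)
        (clampv_abs hR.le b)
      have h2 := clampv_lip R a b
      have h3 : 0 ≤ ‖a - b‖ := norm_nonneg _
      calc ‖rhs G (κ t) (clampv R a) - rhs G (κ t) (clampv R b)‖
          ≤ K * ‖clampv R a - clampv R b‖ := h1
        _ ≤ K * ‖a - b‖ := mul_le_mul_of_nonneg_left h2 hK0
        _ ≤ (K + 1) * ‖a - b‖ := by nlinarith)
    (by
      intro t z
      exact hM (κ t) (hκ.bd t) _ (clampv_abs hR.le z)) x0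
  -- the integral equation on intervals where the clamp is inactive
  have key : ∀ a b : ℝ, a ≤ b → (∀ t ∈ Set.Icc a b, ∀ i, 0 ≤ x t i ∧ x t i ≤ R) →
      x b = x a + ∫ t in a..b, rhs G (κ t) (x t) := by
    intro a b hab h
    have e1 : ∫ t in a..b, rhs G (κ t) (x t)
        = ∫ t in a..b, rhs G (κ t) (clampv R (x t)) := by
      refine intervalIntegral.integral_congr fun t ht => ?_
      rw [Set.uIcc_of_le hab] at ht
      show rhs G (κ t) (x t) = rhs G (κ t) (clampv R (x t))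
      rw [clampv_eq (h t ht)]
    have e2 := intervalIntegral.integral_add_adjacent_intervals (hxi 0 a) (hxi a b)
    rw [e1, hx b, hx a, ← e2]
    simp only [add_assoc]
  -- the bad set
  set S : Set ℝ := {t | 0 ≤ t ∧ ∃ i, x t i ≤ 0 ∨ R ≤ x t i} with hS
  have hSclosed : IsClosed S := by
    have e : S = Set.Ici 0 ∩ ⋃ i, ({t | x t i ≤ 0} ∪ {t | R ≤ x t i}) := by
      ext t
      simp [hS]
    rw [e]
    refine isClosed_Ici.inter (isClosed_iUnion_of_finite fun i => ?_)
    have hci : Continuous fun t => x t i := (continuous_apply i).comp hxc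
    exact (isClosed_le hci continuous_const).union (isClosed_le continuous_const hci)
  have hSempty : S = ∅ := by
    by_contra hne
    have hne' : S.Nonempty := Set.nonempty_iff_ne_empty.2 hne
    have hbdd : BddBelow S := ⟨0, fun t ht => ht.1⟩
    have hmem : sInf S ∈ S := hSclosed.csInf_mem hne' hbdd
    set T := sInf S with hT
    have hT0 : 0 ≤ T := hmem.1
    have hgood : ∀ t ∈ Set.Ico 0 T, ∀ i, 0 ≤ x t i ∧ x t i ≤ R := by
      intro t ht i
      have hn : t ∉ S := fun h => absurd (csInf_le hbdd h) (not_le.2 ht.2)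
      simp only [hS, Set.mem_ofPred_eq, not_and, not_exists, not_or, not_le] at hn
      exact ⟨(hn ht.1 i).1.le, (hn ht.1 i).2.le⟩
    have hgood' : ∀ t ∈ Set.Icc 0 T, ∀ i, 0 ≤ x t i ∧ x t i ≤ R := by
      rcases hT0.eq_or_lt with h | h
      · intro t ht i
        have : t = 0 := le_antisymm (by rw [h]; exact ht.2) ht.1
        rw [this, hx0]
        exact ⟨(h0 i).le, by linarith [hB x0 h0 le_rfl i]⟩
      · have hC : IsClosed {t | ∀ i, 0 ≤ x t i ∧ x t i ≤ R} := by
          have : {t | ∀ i, 0 ≤ x t i ∧ x t i ≤ R}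
              = ⋂ i, ({t | 0 ≤ x t i} ∩ {t | x t i ≤ R}) := by
            ext t; simp
          rw [this]
          refine isClosed_iInter fun i => ?_
          have hci : Continuous fun t => x t i := (continuous_apply i).comp hxc
          exact (isClosed_le continuous_const hci).inter (isClosed_le hci continuous_const)
        have := closure_minimal (show Set.Ico 0 T ⊆ _ from hgood) hC
        rw [closure_Ico h.ne] at this
        exact this
    have hsol : CSol G κ x (Set.Icc 0 T) :=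
      ⟨hxc.continuousOn, fun a ha b hb hab => key a b hab fun t ht =>
        hgood' t ⟨ha.1.trans ht.1, ht.2.trans hb.2⟩⟩
    have hpos := stay_posM G ε0 hε0 κ hκ x T hsol (by rw [hx0]; exact h0)
    have hFle := hF2 κ hκ x 0 T hT0 hsol hpos
    rw [hx0] at hFle
    have hTB := hB (x T) (hpos T ⟨hT0, le_rfl⟩) hFle
    obtain ⟨-, i, hi | hi⟩ := hmem
    · exact absurd (hpos T ⟨hT0, le_rfl⟩ i) (not_lt.2 hi)
    · linarith [hTB i]
  refine ⟨x, hx0, hxc.continuousOn, fun a ha b hb hab => key a b hab fun t ht i => ?_⟩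
  have hn : t ∉ S := by rw [hSempty]; exact Set.notMem_empty t
  simp only [hS, Set.mem_ofPred_eq, not_and, not_exists, not_or, not_le] at hn
  have ht0 : 0 ≤ t := (Set.mem_Ici.1 ha).trans ht.1
  exact ⟨(hn ht0 i).1.le, (hn ht0 i).2.le⟩

end Vale.Agent.P072
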