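import Vale.Agent.P072.Net

/-! # P072-M: measurable time-dependent rates -/

namespace Vale.Agent.P072

open Finset MeasureTheory

variable {d : ℕ}

/-- measurable time-dependent rates with values in `[ε, ε⁻¹]` -/
structure Rates (G : Net d) (ε : ℝ) (κ : ℝ → Cpx d × Cpx d → ℝ) : Prop where
  meas : ∀ r ∈ G.R, Measurable (fun t => κ t r)
  bd : ∀ t : ℝ, ∀ r ∈ G.R, ε ≤ κ t r ∧ κ t r ≤ ε⁻¹

/-- Caratheodory solutions on `s` (an interval): continuous, and satisfying the integral
equation -/
def CSol (G : Net d) (κ : ℝ → Cpx d × Cpx d → ℝ) (x : ℝ → Fin d → ℝ) (s : Set ℝ) : Prop :=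
  ContinuousOn x s ∧
    ∀ a ∈ s, ∀ b ∈ s, a ≤ b → x b = x a + ∫ t in a..b, rhs G (κ t) (x t)

theorem CSol.mono {G : Net d} {κ : ℝ → Cpx d × Cpx d → ℝ} {x : ℝ → Fin d → ℝ} {s s' : Set ℝ}
    (h : CSol G κ x s) (hs : s' ⊆ s) : CSol G κ x s' :=
  ⟨h.1.mono hs, fun a ha b hb hab => h.2 a (hs ha) b (hs hb) hab⟩

/-- the right-hand side is integrable along a continuous curve -/
theorem rhs_integrable (G : Net d) (ε : ℝ) (hε : 0 < ε) (κ : ℝ → Cpx d × Cpx d → ℝ)
    (hκ : Rates G ε κ) (x : ℝ → Fin d → ℝ) (a b : ℝ) (hab : a ≤ b)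
    (hx : ContinuousOn x (Set.Icc a b)) :
    IntervalIntegrable (fun t => rhs G (κ t) (x t)) volume a b := by
  rw [intervalIntegrable_iff_integrableOn_Icc_of_le hab]
  have key : ∀ r ∈ G.R, IntegrableOn
      (fun t => κ t r • (mono (x t) r.1 • rv r)) (Set.Icc a b) volume := by
    intro r hr
    have hc : ContinuousOn (fun t => mono (x t) r.1 • rv r) (Set.Icc a b) := by
      refine ContinuousOn.smul (f := fun t => mono (x t) r.1) (g := fun _ => rv r) ?_
        continuousOn_const
      unfold mono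
      refine continuousOn_finset_prod _ fun i _ => ?_
      exact (continuousOn_pi.1 hx i).pow _
    have hi : IntegrableOn (fun t => mono (x t) r.1 • rv r) (Set.Icc a b) volume :=
      hc.integrableOn_compact isCompact_Icc
    have hb := Integrable.bdd_smul (φ := fun t => κ t r) hi ε⁻¹
      (hκ.meas r hr).aestronglyMeasurable ?_
    · exact hb
    · refine Filter.Eventually.of_forall fun t => ?_
      rw [Real.norm_eq_abs, abs_le]
      have := hκ.bd t r hr
      constructor <;> nlinarith [inv_pos.2 hε]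
  have hs : (fun t => rhs G (κ t) (x t)) =
      fun t => ∑ r ∈ G.R, κ t r • (mono (x t) r.1 • rv r) := by
    funext t i
    simp only [rhs, rv, Finset.sum_apply, Pi.smul_apply, smul_eq_mul]
    exact Finset.sum_congr rfl fun r _ => by ring
  rw [hs]
  exact integrable_finset_sum _ fun r hr => key r hr

end Vale.Agent.P072
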