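import Vale.Agent.P072.Weights
import Vale.Agent.P072.M.Dini
import Vale.Agent.P072.M.Net
import Vale.Agent.P072.K.Assemble

/-! # P072-M5: face potentials, time-dependent rates -/

namespace Vale.Agent.P072

open Finset

variable {d : ℕ}

/-- coordinates of Caratheodory solutions -/
theorem facePotM_coord (G : Net d) (ε0 : ℝ) (hε0 : 0 < ε0) (κ : ℝ → Cpx d × Cpx d → ℝ)
    (hκ : Rates G ε0 κ) (x : ℝ → Fin d → ℝ) (a b : ℝ) (hab : a ≤ b)
    (hx : CSol G κ x (Set.Icc a b)) (i : Fin d) :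
    ContinuousOn (fun t => x t i) (Set.Icc a b) ∧
    IntervalIntegrable (fun t => rhs G (κ t) (x t) i) MeasureTheory.volume a b ∧
    ∀ s ∈ Set.Icc a b, ∀ t ∈ Set.Icc a b, s ≤ t →
      x t i = x s i + ∫ r in s..t, rhs G (κ r) (x r) i := by
  have hc : ∀ s t : ℝ, s ≤ t → Set.Icc s t ⊆ Set.Icc a b →
      IntervalIntegrable (fun t => rhs G (κ t) (x t)) MeasureTheory.volume s t := by
    intro s t hst hsub
    exact rhs_integrable G ε0 hε0 κ hκ x s t hst (hx.1.mono hsub)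
  refine ⟨?_, ?_, ?_⟩
  · intro t ht
    have h1 : ContinuousWithinAt x (Set.Icc a b) t := hx.1 t ht
    exact (continuous_apply i).continuousAt.comp_continuousWithinAt h1
  · have h1 := hc a b hab le_rfl
    exact ⟨(ContinuousLinearMap.proj (R := ℝ) (φ := fun _ : Fin d => ℝ) i).integrable_comp h1.1,
      (ContinuousLinearMap.proj (R := ℝ) (φ := fun _ : Fin d => ℝ) i).integrable_comp h1.2⟩
  · intro s hs t ht hst
    have h1 := hc s t hst (Set.Icc_subset_Icc hs.1 ht.2)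
    have h2 := (ContinuousLinearMap.proj (R := ℝ) (φ := fun _ : Fin d => ℝ)
      i).intervalIntegral_comp_comm h1
    have h3 := congrFun (hx.2 s hs t ht hst) i
    rw [Pi.add_apply] at h3
    rw [h3]
    congr 1
    exact h2.symm

theorem face_potM (G : Net d) (hG : WR G) (I : Finset (Fin d)) (ε ε0 : ℝ)
    (hε : 0 < ε) (hε0 : 0 < ε0) :
    ∃ (Φ : ({i // i ∈ I} → ℝ) → ℝ) (E T : ℝ), 0 ≤ E ∧ 0 ≤ T ∧
      (∀ z : {i // i ∈ I} → ℝ, (∀ i, 0 < z i) →
        ∑ i, z i * (Real.log (z i) - T - 1) ≤ Φ z ∧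
        Φ z ≤ ∑ i, z i * (Real.log (z i) + T - 1)) ∧
      (∀ κ : ℝ → Cpx d × Cpx d → ℝ, Rates G ε0 κ →
        ∀ (x : ℝ → Fin d → ℝ) (a b : ℝ), a ≤ b → CSol G κ x (Set.Icc a b) →
        (∀ t ∈ Set.Icc a b, (∀ i, 0 < x t i) ∧
          ∀ r ∈ G.R, ε ≤ wt (κ t) I (x t) r ∧ wt (κ t) I (x t) r ≤ ε⁻¹) →
        Φ (fun i => x b i) ≤ Φ (fun i => x a i)) ∧
      (∀ L : ℝ, ∃ δ : ℝ, 0 < δ ∧ ∀ κ : ℝ → Cpx d × Cpx d → ℝ, Rates G ε0 κ →
        ∀ (x : ℝ → Fin d → ℝ) (a b : ℝ), a ≤ b →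
        CSol G κ x (Set.Icc a b) →
        (∀ t ∈ Set.Icc a b, (∀ i, 0 < x t i) ∧
          (∀ r ∈ G.R, ε ≤ wt (κ t) I (x t) r ∧ wt (κ t) I (x t) r ≤ ε⁻¹) ∧
          (∀ i ∈ I, |Real.log (x t i)| ≤ L) ∧
          ∀ v : {i // i ∈ I} → ℝ, (∀ i, |v i - Real.log (x t i)| ≤ E) →
            ∃ r ∈ G.R, ∑ i, v i * rv r i ≠ 0) →
        Φ (fun i => x b i) ≤ Φ (fun i => x a i) - δ * (b - a)) := by
  obtain ⟨τ, hτ⟩ := exists_tau G.R.card ε hε
  obtain ⟨A, hA1, hA⟩ := exists_A G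
  obtain ⟨Φ, E, m, T, hm, hE, hT, hΦ⟩ := exists_pot {i // i ∈ I} A hA1 (τ + A * 1)
  have hnear : ∀ (x y v : {i // i ∈ I} → ℝ), Good Φ A (τ + A * 1) E m y v →
      (∀ i, |Real.log (y i) - Real.log (x i)| ≤ 1) →
      Good (fun z => ∑ i, z i * v i) A τ (E + 1) m x v := by
    intro x y v hv hxy
    have h := good_near Φ A (τ + A * 1) E m 1 zero_le_one x y v hv hxy
    rw [add_sub_cancel_right] at h
    exact h
  refine ⟨Φ, E + 1, T, by linarith, hT, fun z hz => ⟨hΦ.lower z hz, hΦ.upper z hz⟩, ?_, ?_⟩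
  · intro κ hκ x a b hab hs hx
    have h := dini_int Φ A (τ + A * 1) E m T 0 1 one_pos hΦ
      (fun t => fun i : {i // i ∈ I} => x t i)
      (fun t => fun i : {i // i ∈ I} => rhs G (κ t) (x t) i) a b hab
      (continuousOn_pi.mpr fun i => (facePotM_coord G ε0 hε0 κ hκ x a b hab hs i).1)
      (fun i => (facePotM_coord G ε0 hε0 κ hκ x a b hab hs i).2.1)
      (fun s hs' t ht hst i =>
        (facePotM_coord G ε0 hε0 κ hκ x a b hab hs i).2.2 s hs' t ht hst)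
      (fun t ht i => (hx t ht).1 i) (fun t ht y _ hy v hv => by
        rw [neg_zero]
        exact face_ineq G hG (κ t) A hA I ε τ (E + 1) m hε hτ _ (x t) (hx t ht).1 v
          (hnear _ y v hv hy) (hx t ht).2)
    rw [zero_mul, sub_zero] at h
    exact h
  · intro L
    refine ⟨1 / 2 * ε * m * Real.exp (-(A * |L|)), by positivity, ?_⟩
    intro κ hκ x a b hab hs hx
    exact dini_int Φ A (τ + A * 1) E m T (1 / 2 * ε * m * Real.exp (-(A * |L|))) 1 one_pos hΦ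
      (fun t => fun i : {i // i ∈ I} => x t i)
      (fun t => fun i : {i // i ∈ I} => rhs G (κ t) (x t) i) a b hab
      (continuousOn_pi.mpr fun i => (facePotM_coord G ε0 hε0 κ hκ x a b hab hs i).1)
      (fun i => (facePotM_coord G ε0 hε0 κ hκ x a b hab hs i).2.1)
      (fun s hs' t ht hst i =>
        (facePotM_coord G ε0 hε0 κ hκ x a b hab hs i).2.2 s hs' t ht hst)
      (fun t ht i => (hx t ht).1 i) (fun t ht y _ hy v hv =>
        face_strict G hG (κ t) A hA I ε τ (E + 1) m hε hm hτ _ (x t) (hx t ht).1 v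
          (hnear _ y v hv hy) (hx t ht).2.1 L (hx t ht).2.2.1
          ((hx t ht).2.2.2 v (hnear _ y v hv hy).2.1))

end Vale.Agent.P072
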