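import Vale.Agent.P072.M.Barrier
import Vale.Agent.P072.M.Escape
import Vale.Agent.P072.M.Persist

/-! # P072-M14: uniform persistence -/

namespace Vale.Agent.P072

open Finset

variable {d : ℕ}

namespace UniformMAux

theorem exists_pos_lb {ι : Type*} [Finite ι] (f : ι → ℝ) (hf : ∀ j, 0 < f j) :
    ∃ m : ℝ, 0 < m ∧ ∀ j, m ≤ f j := by
  rcases isEmpty_or_nonempty ι with h | h
  · exact ⟨1, one_pos, fun j => (h.false j).elim⟩
  · obtain ⟨j0, hj0⟩ := Finite.exists_min f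
    exact ⟨f j0, hf j0, hj0⟩

theorem exists_nonneg_ub {ι : Type*} [Finite ι] (f : ι → ℝ) :
    ∃ m : ℝ, 0 ≤ m ∧ ∀ j, f j ≤ m := by
  rcases isEmpty_or_nonempty ι with h | h
  · exact ⟨0, le_rfl, fun j => (h.false j).elim⟩
  · obtain ⟨j0, hj0⟩ := Finite.exists_max f
    exact ⟨max 0 (f j0), le_max_left _ _, fun j => (hj0 j).trans (le_max_right _ _)⟩

/-- the solutions under consideration -/
def AdmM (G : Net d) (ε0 : ℝ) (κ : ℝ → Cpx d × Cpx d → ℝ) (c : Fin d → ℝ) (B : ℝ)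
    (x : ℝ → Fin d → ℝ) : Prop :=
  Rates G ε0 κ ∧ CSol G κ x (Set.Ici 0) ∧ ∀ t, 0 ≤ t → x t ∈ Cls G c ∧ ∀ i, x t i ≤ B

theorem compactK (G : Net d) (c : Fin d → ℝ) (B : ℝ) :
    IsCompact {p : Fin d → ℝ | p - c ∈ stoich G ∧ ∀ i, 0 ≤ p i ∧ p i ≤ B} := by
  have h1 : IsCompact (Set.Icc (fun _ : Fin d => (0:ℝ)) (fun _ => B)) := isCompact_Icc
  have h2 : IsClosed {p : Fin d → ℝ | p - c ∈ stoich G} := by
    have : IsClosed ((stoich G : Submodule ℝ (Fin d → ℝ)) : Set (Fin d → ℝ)) :=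
      Submodule.closed_of_finiteDimensional _
    exact this.preimage (by fun_prop : Continuous fun p : Fin d → ℝ => p - c)
  convert h1.inter_left h2 using 1
  ext p
  simp only [Set.mem_ofPred_eq, Set.mem_inter_iff, Set.mem_Icc, Pi.le_def]
  constructor
  · rintro ⟨a, b⟩
    exact ⟨a, fun i => (b i).1, fun i => (b i).2⟩
  · rintro ⟨a, b, e⟩
    exact ⟨a, fun i => ⟨b i, e i⟩⟩

theorem key (G : Net d) (hG : WR G) (ε0 : ℝ) (hε0 : 0 < ε0) (hε1 : ε0 ≤ 1)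
    (c : Fin d → ℝ) (B : ℝ) (hB : 0 < B) (n : ℕ) :
    ∀ I : Finset (Fin d), Iᶜ.card = n → I.Nonempty →
      ∃ ρ : ℝ, 0 < ρ ∧ ∀ (κ : ℝ → Cpx d × Cpx d → ℝ) (x : ℝ → Fin d → ℝ), AdmM G ε0 κ c B x →
        ∃ t0 : ℝ, 0 ≤ t0 ∧ ∀ t, t0 ≤ t → ∃ i ∈ I, ρ ≤ x t i := by
  induction n using Nat.strong_induction_on with
  | _ n ih =>
  intro I hn hI
  by_cases hp : ∃ p : Fin d → ℝ, (p - c ∈ stoich G ∧ ∀ i, 0 ≤ p i ∧ p i ≤ B) ∧ ∀ i ∈ I, p i = 0
  · -- case 1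
    obtain ⟨p, ⟨hp1, _⟩, hp3⟩ := hp
    have hj : ∀ j : Fin d, ∃ ρ : ℝ, 0 < ρ ∧ (j ∉ I → ∀ (κ : ℝ → Cpx d × Cpx d → ℝ) (x : ℝ → Fin d → ℝ),
        AdmM G ε0 κ c B x →
        ∃ t0 : ℝ, 0 ≤ t0 ∧ ∀ t, t0 ≤ t → ∃ i ∈ insert j I, ρ ≤ x t i) := by
      intro j
      by_cases hjI : j ∈ I
      · exact ⟨1, one_pos, fun h => absurd hjI h⟩
      · have hlt : (insert j I)ᶜ.card < n := by
          rw [← hn]
          apply Finset.card_lt_card
          rw [Finset.ssubset_iff_of_subset (Finset.compl_subset_compl.2 (Finset.subset_insert _ _))]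
          exact ⟨j, by simpa using hjI, by simp⟩
        obtain ⟨ρ, h1, h2⟩ := ih _ hlt (insert j I) rfl (Finset.insert_nonempty _ _)
        exact ⟨ρ, h1, fun _ => h2⟩
    choose ρf hρf0 hρf using hj
    obtain ⟨lo, hlo, hlo'⟩ := exists_pos_lb ρf hρf0
    obtain ⟨r1b, hr1b, hbar⟩ := barrierM G hG ε0 hε0 hε1 I lo B hlo hB
    obtain ⟨r1e, hr1e, hesc⟩ := escapeM G hG ε0 hε0 hε1 c I hI lo B hlo hB p hp1 hp3
    set r := min (min r1b r1e) (lo / 2) with hr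
    have hr0 : 0 < r := lt_min (lt_min hr1b hr1e) (by positivity)
    have hrb : r ≤ r1b := (min_le_left _ _).trans (min_le_left _ _)
    have hre : r ≤ r1e := (min_le_left _ _).trans (min_le_right _ _)
    have hrlo : r < lo := lt_of_le_of_lt (min_le_right _ _) (by linarith)
    obtain ⟨ρ0, hρ0, hρ0'⟩ := hbar r hr0 hrb r hr0 le_rfl
    refine ⟨ρ0, hρ0, fun κ x hx => ?_⟩
    obtain ⟨hκ, hx⟩ := hx
    have hpos : ∀ t, 0 ≤ t → ∀ i, 0 < x t i ∧ x t i ≤ B := fun t ht i =>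
      ⟨((hx.2 t ht).1).1 i, (hx.2 t ht).2 i⟩
    obtain ⟨ρx, hρx0, hρx⟩ := persistM G hG ε0 hε0 hε1 κ hκ B hB x hx.1 hpos
    have htj : ∀ j : Fin d, ∃ t0 : ℝ, 0 ≤ t0 ∧ (j ∉ I → ∀ t, t0 ≤ t → ∃ i ∈ insert j I, ρf j ≤ x t i) := by
      intro j
      by_cases hjI : j ∈ I
      · exact ⟨0, le_rfl, fun h => absurd hjI h⟩
      · obtain ⟨t0, h1, h2⟩ := hρf j hjI κ x ⟨hκ, hx⟩
        exact ⟨t0, h1, fun _ => h2⟩
    choose tj htj0 htj' using htj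
    obtain ⟨t1, ht1, ht1'⟩ := exists_nonneg_ub tj
    have hface : ∀ t, t1 ≤ t → (∀ i ∈ I, x t i ≤ r) → ∀ j, j ∉ I → lo ≤ x t j := by
      intro t ht hle j hjI
      obtain ⟨i, hi, hi'⟩ := htj' j hjI t ((ht1' j).trans ht)
      rcases Finset.mem_insert.1 hi with h | h
      · subst h
        exact (hlo' i).trans hi'
      · have h1 := hle i h
        have h2 := hlo' j
        linarith
    obtain ⟨t2, ht2, i, hiI, hit⟩ := hesc r hr0 hre κ hκ x t1 (|Real.log ρx| + |Real.log B|)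
      (hx.1.mono (Set.Ici_subset_Ici.2 ht1)) (by
        intro t ht
        have ht0 : 0 ≤ t := ht1.trans ht
        refine ⟨(hx.2 t ht0).1, fun i => ⟨(hx.2 t ht0).2 i, ?_⟩, hface t ht⟩
        have h1 := Real.log_le_log hρx0 (hρx t ht0 i)
        have h2 := Real.log_le_log (hpos t ht0 i).1 (hpos t ht0 i).2
        rw [abs_le]
        constructor
        · have := neg_abs_le (Real.log ρx)
          have := abs_nonneg (Real.log B)
          linarith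
        · have := le_abs_self (Real.log B)
          have := abs_nonneg (Real.log ρx)
          linarith)
    refine ⟨t2, ht1.trans ht2, fun t ht => ?_⟩
    have ht20 : 0 ≤ t2 := ht1.trans ht2
    refine hρ0' κ hκ x t2 t ht (hx.1.mono fun u hu => ht20.trans hu.1) ?_ ⟨i, hiI, hit.le⟩
    intro u hu
    exact ⟨hpos u (ht20.trans hu.1), hface u (ht2.trans hu.1)⟩
  · -- case 2
    have hK := compactK G c B
    set K := {p : Fin d → ℝ | p - c ∈ stoich G ∧ ∀ i, 0 ≤ p i ∧ p i ≤ B} with hKdef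
    have hmem : ∀ (κ : ℝ → Cpx d × Cpx d → ℝ) (x : ℝ → Fin d → ℝ), AdmM G ε0 κ c B x →
        ∀ t, 0 ≤ t → x t ∈ K := by
      intro κ x hx t ht
      obtain ⟨⟨h1, h2⟩, h3⟩ := hx.2.2 t ht
      exact ⟨h2, fun i => ⟨(h1 i).le, h3 i⟩⟩
    rcases K.eq_empty_or_nonempty with hE | hne
    · refine ⟨1, one_pos, fun κ x hx => ?_⟩
      have := hmem κ x hx 0 le_rfl
      rw [hE] at this
      exact this.elim
    · obtain ⟨p0, hp0, hmin⟩ := hK.exists_isMinOn hne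
        (f := fun p : Fin d → ℝ => ∑ i ∈ I, p i) (by fun_prop)
      have hpos : 0 < ∑ i ∈ I, p0 i := by
        have h0 : 0 ≤ ∑ i ∈ I, p0 i := Finset.sum_nonneg fun i _ => (hp0.2 i).1
        rcases h0.lt_or_eq with h | h
        · exact h
        · exfalso
          apply hp
          refine ⟨p0, hp0, ?_⟩
          exact (Finset.sum_eq_zero_iff_of_nonneg fun i _ => (hp0.2 i).1).1 h.symm
      have hcard : 0 < (I.card : ℝ) := by exact_mod_cast hI.card_pos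
      refine ⟨(∑ i ∈ I, p0 i) / I.card, by positivity,
        fun κ x hx => ⟨0, le_rfl, fun t ht => ?_⟩⟩
      by_contra hcon
      push Not at hcon
      have h1 : ∑ i ∈ I, x t i < ∑ i ∈ I, (∑ i ∈ I, p0 i) / (I.card : ℝ) :=
        Finset.sum_lt_sum_of_nonempty hI hcon
      rw [Finset.sum_const, nsmul_eq_mul, mul_div_cancel₀ _ hcard.ne'] at h1
      have h2 : ∑ i ∈ I, p0 i ≤ ∑ i ∈ I, x t i := hmin (hmem κ x hx t ht)
      linarith

end UniformMAux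

open UniformMAux

theorem uniformM (G : Net d) (hG : WR G) (ε0 : ℝ) (hε0 : 0 < ε0) (hε1 : ε0 ≤ 1)
    (c : Fin d → ℝ) (B : ℝ) (hB : 0 < B) :
    ∃ ρ : ℝ, 0 < ρ ∧ ∀ κ : ℝ → Cpx d × Cpx d → ℝ, Rates G ε0 κ →
      ∀ x : ℝ → Fin d → ℝ, CSol G κ x (Set.Ici 0) →
      (∀ t, 0 ≤ t → x t ∈ Cls G c ∧ ∀ i, x t i ≤ B) →
      ∃ t0 : ℝ, 0 ≤ t0 ∧ ∀ t, t0 ≤ t → ∀ i, ρ ≤ x t i := by
  have h := fun i : Fin d => key G hG ε0 hε0 hε1 c B hB _ {i} rfl (Finset.singleton_nonempty i)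
  choose ρf hρf0 hρf using h
  obtain ⟨ρ, hρ, hρ'⟩ := exists_pos_lb ρf hρf0
  refine ⟨ρ, hρ, fun κ hκ x hx hx' => ?_⟩
  have h2 := fun i : Fin d => hρf i κ x ⟨hκ, hx, hx'⟩
  choose tf htf0 htf using h2
  obtain ⟨t0, ht0, ht0'⟩ := exists_nonneg_ub tf
  refine ⟨t0, ht0, fun t ht i => ?_⟩
  obtain ⟨j, hj, hj'⟩ := htf i t ((ht0' i).trans ht)
  rw [Finset.mem_singleton] at hj
  subst hj
  exact (hρ' j).trans hj'

end Vale.Agent.P072
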