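import Vale.Agent.P072.M.Exist
import Vale.Agent.P072.M.Uniform

/-! # P072-M15: permanence for measurable time-dependent rates -/

namespace Vale.Agent.P072

open Finset

variable {d : ℕ}

theorem Rates.shift {G : Net d} {ε : ℝ} {κ : ℝ → Cpx d × Cpx d → ℝ} (h : Rates G ε κ) (t1 : ℝ) :
    Rates G ε (fun t => κ (t1 + t)) :=
  ⟨fun r hr => (h.meas r hr).comp (measurable_const_add t1), fun t r hr => h.bd (t1 + t) r hr⟩

theorem CSol.shift {G : Net d} {κ : ℝ → Cpx d × Cpx d → ℝ} {x : ℝ → Fin d → ℝ}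
    (h : CSol G κ x (Set.Ici 0)) (t1 : ℝ) (ht1 : 0 ≤ t1) :
    CSol G (fun t => κ (t1 + t)) (fun s => x (t1 + s)) (Set.Ici 0) := by
  have hm : ∀ s : ℝ, s ∈ Set.Ici (0 : ℝ) → t1 + s ∈ Set.Ici (0 : ℝ) := fun s hs =>
    Set.mem_Ici.2 (by have := Set.mem_Ici.1 hs; linarith)
  refine ⟨h.1.comp (by fun_prop) hm, fun a ha b hb hab => ?_⟩
  have h1 := h.2 (t1 + a) (hm a ha) (t1 + b) (hm b hb) (by linarith)
  have h2 := intervalIntegral.integral_comp_add_left (a := a) (b := b)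
    (fun t => rhs G (κ t) (x t)) t1
  show x (t1 + b) = x (t1 + a) + ∫ t in a..b, rhs G (κ (t1 + t)) (x (t1 + t))
  rw [h1]
  congr 1
  exact h2.symm

theorem permanenceM (G : Net d) (hG : WR G) (ε0 : ℝ) (hε0 : 0 < ε0) (hε1 : ε0 ≤ 1)
    (c : Fin d → ℝ) (hc : ∀ i, 0 < c i) :
    ∃ K : Set (Fin d → ℝ), K ⊆ Cls G c ∧ IsCompact K ∧
      ∀ κ : ℝ → Cpx d × Cpx d → ℝ, Rates G ε0 κ →
      ∀ x : ℝ → Fin d → ℝ, CSol G κ x (Set.Ici 0) → x 0 ∈ Cls G c →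
        ∃ t0 : ℝ, ∀ t, t0 ≤ t → x t ∈ K := by
  obtain ⟨F, hF1, hF2, hF3⟩ := global_potM G hG ε0 hε0 hε1
  obtain ⟨a0, ha0⟩ := hF3 c hc
  obtain ⟨B0, hB0, hB0'⟩ := hF1 a0
  obtain ⟨ρ, hρ, hunif⟩ := uniformM G hG ε0 hε0 hε1 c B0 hB0
  refine ⟨{x | x - c ∈ stoich G} ∩ Set.pi Set.univ (fun _ => Set.Icc ρ B0), ?_, ?_, ?_⟩
  · rintro x ⟨h1, h2⟩
    exact ⟨fun i => hρ.trans_le (h2 i (Set.mem_univ i)).1, h1⟩
  · refine IsCompact.inter_left (isCompact_univ_pi fun _ => isCompact_Icc) ?_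
    have h1 : IsClosed (stoich G : Set (Fin d → ℝ)) := Submodule.closed_of_finiteDimensional _
    exact h1.preimage (by fun_prop : Continuous fun x : Fin d → ℝ => x - c)
  · intro κ hκ x hx hx0
    have hsol : ∀ a b, 0 ≤ a → CSol G κ x (Set.Icc a b) := fun a b ha =>
      hx.mono fun t ht => Set.mem_Ici.2 (ha.trans ht.1)
    have hpos : ∀ t, 0 ≤ t → ∀ i, 0 < x t i := fun t ht =>
      stay_posM G ε0 hε0 κ hκ x t (hsol 0 t le_rfl) hx0.1 t ⟨ht, le_rfl⟩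
    have hcls : ∀ t, 0 ≤ t → x t - c ∈ stoich G := fun t ht =>
      stay_clsM G ε0 hε0 κ hκ c x t (hsol 0 t le_rfl) hx0.2 t ⟨ht, le_rfl⟩
    have hdec : ∀ a b, 0 ≤ a → a ≤ b → F (x b) ≤ F (x a) := fun a b ha hab =>
      hF2 κ hκ x a b hab (hsol a b ha) (fun t ht => hpos t (ha.trans ht.1))
    obtain ⟨B1, hB1, hB1'⟩ := hF1 (F (x 0))
    have hle : ∀ t, 0 ≤ t → ∀ i, x t i ≤ B1 := fun t ht =>
      hB1' (x t) (hpos t ht) (hdec 0 t le_rfl ht)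
    obtain ⟨ρ1, hρ1, hρ1'⟩ := persistM G hG ε0 hε0 hε1 κ hκ B1 hB1 x hx
      (fun t ht i => ⟨hpos t ht i, hle t ht i⟩)
    have hL : ∀ t, 0 ≤ t → ∀ i, |Real.log (x t i)| ≤ max |Real.log ρ1| |Real.log B1| := by
      intro t ht i
      exact abs_le_max_abs_abs (Real.log_le_log hρ1 (hρ1' t ht i))
        (Real.log_le_log (hpos t ht i) (hle t ht i))
    obtain ⟨δ, hδ, hδ'⟩ := ha0 (max |Real.log ρ1| |Real.log B1|)
    have hex : ∃ t1, 0 ≤ t1 ∧ F (x t1) ≤ a0 := by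
      by_contra hcon
      push Not at hcon
      have h1 : a0 < F (x 0) := hcon 0 le_rfl
      set b : ℝ := (F (x 0) - a0) / δ with hb
      have hb0 : 0 ≤ b := div_nonneg (by linarith) hδ.le
      have h2 := hδ' κ hκ x 0 b hb0 (hsol 0 b le_rfl) (fun t ht =>
        ⟨⟨hpos t ht.1, hcls t ht.1⟩, hL t ht.1, hcon t ht.1⟩)
      have h3 : δ * b = F (x 0) - a0 := by rw [hb]; field_simp
      have h4 := hcon b hb0
      rw [sub_zero, h3] at h2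
      linarith
    obtain ⟨t1, ht1, hFt1⟩ := hex
    obtain ⟨t0, ht0, hfin⟩ := hunif (fun s => κ (t1 + s)) (hκ.shift t1) (fun s => x (t1 + s))
      (hx.shift t1 ht1) (fun t ht =>
      ⟨⟨hpos _ (by linarith), hcls _ (by linarith)⟩,
        hB0' _ (hpos _ (by linarith)) ((hdec t1 (t1 + t) ht1 (by linarith)).trans hFt1)⟩)
    refine ⟨t1 + t0, fun t ht => ⟨hcls t (by linarith), fun i _ => ⟨?_, ?_⟩⟩⟩
    · have := hfin (t - t1) (by linarith) i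
      simpa using this
    · exact hB0' _ (hpos t (by linarith)) ((hdec t1 t ht1 (by linarith)).trans hFt1) i

end Vale.Agent.P072
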